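import Vale.Agent.P159.Bdl.B9

/-!
Upper bound for the stiffness of the wired block at positive mass, with constants that do not
depend on the mass.
-/

open MeasureTheory Filter Topology
open scoped BigOperators

set_option linter.unusedSectionVars false

namespace Vale.Agent.P159.H670

open Vale.Agent.P159

/-- the transversal correlations in a nonnegative field are nonnegative -/
theorem unF_st_st_nonneg {V : Type*} [Fintype V] (J : V → V → ℝ) (hJ : ∀ u v, 0 ≤ J u v)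
    (h : V → ℝ) (hh : ∀ x, 0 ≤ h x) (x y : V) :
    0 ≤ XY.unF J h (fun θ => XY.st (θ x) * XY.st (θ y)) := by
  classical
  unfold XY.unF
  let g : (V × V) × Bool ⊕ V → (V → T) → ℝ := fun i =>
    Sum.elim (fun i => XY.mo2 i.2 i.1.1 i.1.2) (fun v => XY.mo1 true v) i
  let c : (V × V) × Bool ⊕ V → ℝ := fun i => Sum.elim (fun i => J i.1.1 i.1.2) h i
  have e : ∀ θ : V → T, XY.energy J θ + ∑ x, h x * XY.ct (θ x) = ∑ i, c i * g i θ := by
    intro θ
    rw [Fintype.sum_sum_type, Fintype.sum_prod_type, Fintype.sum_prod_type]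
    have h1 : XY.energy J θ = ∑ u : V, ∑ v : V, ∑ s : Bool,
        c (Sum.inl ((u, v), s)) * g (Sum.inl ((u, v), s)) θ := by
      unfold XY.energy
      refine Finset.sum_congr rfl fun u _ => Finset.sum_congr rfl fun v _ => ?_
      simp only [c, g, Sum.elim_inl, Fintype.sum_bool, XY.mo2, if_true, Bool.false_eq_true,
        if_false]
      rw [XY.ct_sub]
      ring
    rw [h1]
    congr 1
  simp_rw [e]
  refine XY.pos_exp (μ := XY.haarV V) c ?_ (fun θ => XY.st (θ x) * XY.st (θ y)) g (by fun_prop)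
    ?_ ?_
  · intro i
    rcases i with i | i
    · exact hJ _ _
    · exact hh _
  · intro i
    rcases i with i | i
    · exact XY.mo2_cont _ _ _
    · exact XY.mo1_cont _ _
  · intro l
    have hg : ∀ i, XY.IsMono (g i) := by
      intro i
      rcases i with i | i
      · exact XY.mo2_mono _ _ _
      · exact XY.mo1_mono _ _
    exact (((XY.IsMono.st x).mul (XY.IsMono.st y)).mul (XY.IsMono.list_prod hg l)).integral_nonneg

/-- the transversal correlations of the wired block are nonnegative -/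
theorem wired_nonneg (l : ℕ) {b : ℝ} (hb : 0 ≤ b) (x y : inner l) :
    0 ≤ expect (blockEnergy l b) (fun θ => sinT (θ x) * sinT (θ y)) := by
  have h1 := unF_st_st_nonneg (mJ l b) (mJ_nonneg l hb) (mh l b) (mh_nonneg l hb) x y
  have h2 := XY.unF_one_pos (mJ l b) (mh l b)
  have h3 : expect (blockEnergy l b) (fun θ => sinT (θ x) * sinT (θ y)) =
      XY.unF (mJ l b) (mh l b) (fun θ => XY.st (θ x) * XY.st (θ y)) /
        XY.unF (mJ l b) (mh l b) (fun _ => 1) := by
    unfold expect XY.unF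
    have e1 : ∀ θ : inner l → T, Real.exp (blockEnergy l b θ) =
        Real.exp (XY.energy (mJ l b) θ + ∑ x, mh l b x * XY.ct (θ x)) * Real.exp (mK l b) := by
      intro θ
      rw [blockEnergy_field, Real.exp_add]
    simp_rw [e1]
    have e2 : ∀ θ : inner l → T, sinT (θ x) * sinT (θ y) *
        (Real.exp (XY.energy (mJ l b) θ + ∑ x, mh l b x * XY.ct (θ x)) * Real.exp (mK l b)) =
        (XY.st (θ x) * XY.st (θ y) *
        Real.exp (XY.energy (mJ l b) θ + ∑ x, mh l b x * XY.ct (θ x))) * Real.exp (mK l b) := by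
      intro θ
      rw [← mul_assoc]
      rfl
    simp_rw [e2]
    rw [integral_mul_const, integral_mul_const, mul_div_mul_right _ _ (Real.exp_pos _).ne']
    simp only [one_mul]
    rfl
  rw [h3]
  exact div_nonneg h1 h2.le

/-- the correlation of two transversal boundary spins -/
noncomputable def GG (l : ℕ) (b : ℝ) (e e' : BI l) : ℝ :=
  gibbs muInf (fun _ => b / 2) (chi0 l) (fun θ => tw l e θ * tw l e' θ)

theorem GG_zero_left {l : ℕ} (b : ℝ) {e : BI l} (e' : BI l) (h : sg l e = 0) :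
    GG l b e e' = 0 := by
  have : (fun θ => tw l e θ * tw l e' θ) = fun _ => (0 : ℝ) := by
    funext θ; unfold tw; rw [h]; ring
  unfold GG
  rw [this, gibbs_const]

theorem GG_zero_right {l : ℕ} (b : ℝ) (e : BI l) {e' : BI l} (h : sg l e' = 0) :
    GG l b e e' = 0 := by
  have : (fun θ => tw l e θ * tw l e' θ) = fun _ => (0 : ℝ) := by
    funext θ; unfold tw; rw [h]; ring
  unfold GG
  rw [this, gibbs_const]

theorem GG_nonneg (l : ℕ) {b : ℝ} (hb : 0 ≤ b) (e e' : BI l) : 0 ≤ GG l b e e' := by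
  rcases sg_cases l e with h | ⟨h1, h2, h3, h4, h5⟩
  · rw [GG_zero_left b e' h]
  rcases sg_cases l e' with h | ⟨h1', h2', h3', h4', h5'⟩
  · rw [GG_zero_right b e h]
  unfold GG
  simp_rw [h3, h3']
  have hF : Continuous fun θ : Ginf => sinT (θ (xin l e)) * sinT (θ (xin l e')) :=
    (cont_sin.comp (continuous_apply (xin l e))).mul (cont_sin.comp (continuous_apply (xin l e')))
  rw [gibbs_chi0 l b (F := fun θ => sinT (θ (xin l e)) * sinT (θ (xin l e'))) hF]
  have h1 := wired_nonneg l hb ⟨xin l e, h1⟩ ⟨xin l e', h1'⟩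
  simp_rw [ext_mem (by assumption : xin l e ∈ inner l), ext_mem h1']
  exact h1

/-- outer end of a boundary bond -/
noncomputable def out (l : ℕ) (e : BI l) : ℤ × ℤ := if bu e ∈ inner l then bv e else bu e

theorem pe_out (l : ℕ) (e : BI l) : pe l e = ((out l e).1 : ℝ) := by
  unfold pe out; split_ifs <;> rfl

/-- the quadratic form of boundary data is a double sum over the boundary -/
theorem bform (l : ℕ) (b : ℝ) (p : BI l → ℝ) :
    ∑ e : BI l, ∑ e' : BI l, 1 / 2 * (b / 2) ^ 2 * (p e - p e') ^ 2 * GG l b e e' =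
      Qform muInf (fun _ => b / 2) (chi0 l) (fun e => sg l e * p e) := by
  have hf : ∀ v, v ∉ inner l → f1 l v = 0 := fun v hv => by unfold f1; rw [if_neg hv]
  have hward := ward muInf (fun _ => b / 2) (chi0 l) (fun e => f1 l (bu e) - f1 l (bv e))
    (fun e => sg l e * p e ^ 2)
    (gaugeX (f1 l)) (fun t e => (chi0_gauge l hf t e).1) (fun t e => (chi0_gauge l hf t e).2)
  have hsg : ∀ e : BI l, f1 l (bu e) - f1 l (bv e) = sg l e := fun e => rfl
  simp only [hsg] at hward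
  have ctw := fun e => tw_cont l e
  unfold Qform
  have e1 : (fun θ : Ginf => ∑ e : BI l, b / 2 * (sg l e * p e) ^ 2 * (chi0 l e).c θ) =
      fun θ => ∑ e : BI l, b / 2 * (sg l e * p e ^ 2) * sg l e * (chi0 l e).c θ := by
    funext θ
    exact Finset.sum_congr rfl fun e _ => by ring
  have e2 : (fun θ : Ginf => (∑ e : BI l, b / 2 * (sg l e * p e) * (chi0 l e).s θ) ^ 2) =
      fun θ => (∑ e : BI l, b / 2 * (p e * tw l e θ)) ^ 2 := by
    funext θ
    congr 1
    refine Finset.sum_congr rfl fun e _ => ?_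
    unfold tw; ring
  have e3 : (fun θ : Ginf => (∑ e : BI l, b / 2 * (sg l e * p e ^ 2) * (chi0 l e).s θ) *
      (∑ e : BI l, b / 2 * sg l e * (chi0 l e).s θ)) = fun θ =>
        (∑ e : BI l, b / 2 * (p e ^ 2 * tw l e θ)) * (∑ e : BI l, b / 2 * tw l e θ) := by
    funext θ
    congr 1
    · refine Finset.sum_congr rfl fun e _ => ?_
      unfold tw; ring
    · refine Finset.sum_congr rfl fun e _ => ?_
      unfold tw; ring
  rw [e1, e2, hward, e3]
  have e4 : (fun θ : Ginf => (∑ e : BI l, b / 2 * (p e ^ 2 * tw l e θ)) *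
      (∑ e : BI l, b / 2 * tw l e θ)) = fun θ =>
      (∑ e : BI l, b / 2 * (p e * tw l e θ)) ^ 2 +
      ∑ e : BI l, ∑ e' : BI l, 1 / 2 * (b / 2) ^ 2 * (p e - p e') ^ 2 *
        (tw l e θ * tw l e' θ) := by
    funext θ
    rw [← quad_identity (b / 2) p (fun e => tw l e θ)]
    ring
  have c2 : Continuous fun θ : Ginf => (∑ e : BI l, b / 2 * (p e * tw l e θ)) ^ 2 := by
    fun_prop
  have c4 : Continuous fun θ : Ginf => ∑ e : BI l, ∑ e' : BI l,
      1 / 2 * (b / 2) ^ 2 * (p e - p e') ^ 2 * (tw l e θ * tw l e' θ) := by fun_prop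
  rw [e4, gibbs_add muInf (fun _ => b / 2) (chi0 l) c2 c4,
    gibbs_sum Finset.univ l b (fun e θ => ∑ e' : BI l, 1 / 2 * (b / 2) ^ 2 *
      (p e - p e') ^ 2 * (tw l e θ * tw l e' θ)) (by intro e; fun_prop)]
  have e5 : ∀ e : BI l, gibbs muInf (fun _ => b / 2) (chi0 l) (fun θ => ∑ e' : BI l,
      1 / 2 * (b / 2) ^ 2 * (p e - p e') ^ 2 * (tw l e θ * tw l e' θ)) =
      ∑ e' : BI l, 1 / 2 * (b / 2) ^ 2 * (p e - p e') ^ 2 * GG l b e e' := by
    intro e
    rw [gibbs_sum Finset.univ l b (fun e' θ => 1 / 2 * (b / 2) ^ 2 *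
      (p e - p e') ^ 2 * (tw l e θ * tw l e' θ)) (by intro e; fun_prop)]
    refine Finset.sum_congr rfl fun e' _ => ?_
    rw [gibbs_const_mul]
    rfl
  simp_rw [e5]
  ring

/-- comparison with the Dirichlet energy of any extension -/
theorem bform_le (l : ℕ) {b : ℝ} (hb : 0 ≤ b) (F : ℤ × ℤ → ℝ) :
    ∑ e : BI l, ∑ e' : BI l, 1 / 2 * (b / 2) ^ 2 * (F (out l e) - F (out l e')) ^ 2 *
      GG l b e e' ≤ ∑ e : BI l, b / 2 * (F (bv e) - F (bu e)) ^ 2 := by
  classical
  rw [bform l b (fun e => F (out l e))]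
  set fF : ℤ × ℤ → ℝ := fun v => if v ∈ inner l then F v else 0 with hfF
  have hf : ∀ v, v ∉ inner l → fF v = 0 := fun v hv => by simp only [hfF]; rw [if_neg hv]
  have hg := Qform_gauge muInf (fun _ => b / 2) (chi0 l) (fun e => fF (bu e) - fF (bv e))
    (fun e => F (bv e) - F (bu e))
    (gaugeX fF) (fun t e => (chi0_gauge l hf t e).1) (fun t e => (chi0_gauge l hf t e).2)
  -- the bonds outside
  have hout : Qform muInf (fun _ => b / 2) (chi0 l)
      (fun e => F (bv e) - F (bu e) + (fF (bu e) - fF (bv e))) =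
      Qform muInf (fun _ => b / 2) (chi0 l) (fun e => sg l e * F (out l e)) +
        ∑ e : BI l, if bu e ∉ inner l ∧ bv e ∉ inner l then
          b / 2 * (F (bv e) - F (bu e)) ^ 2 else 0 := by
    unfold Qform
    have hs : ∀ (e : BI l) (θ : Ginf), (chi0 l e).s θ =
        sinT (proj (inner l : Set (ℤ × ℤ)) θ (bu e) -
        proj (inner l : Set (ℤ × ℤ)) θ (bv e)) := fun e θ => rfl
    have hc : ∀ (e : BI l) (θ : Ginf), (chi0 l e).c θ =
        cosT (proj (inner l : Set (ℤ × ℤ)) θ (bu e) -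
        proj (inner l : Set (ℤ × ℤ)) θ (bv e)) := fun e θ => rfl
    have e1 : (fun θ : Ginf => ∑ e : BI l, b / 2 *
        (F (bv e) - F (bu e) + (fF (bu e) - fF (bv e))) ^ 2 * (chi0 l e).c θ) =
        fun θ => (∑ e : BI l, b / 2 * (sg l e * F (out l e)) ^ 2 * (chi0 l e).c θ) +
          ∑ e : BI l, if bu e ∉ inner l ∧ bv e ∉ inner l then
          b / 2 * (F (bv e) - F (bu e)) ^ 2 else 0 := by
      funext θ
      rw [← Finset.sum_add_distrib]
      refine Finset.sum_congr rfl fun e _ => ?_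
      simp only [hfF]
      unfold sg out
      by_cases hu : bu e ∈ inner l
      · by_cases hv : bv e ∈ inner l
        · simp only [if_pos hu, if_pos hv]
          rw [if_neg (fun h => h.1 hu)]
          ring
        · simp only [if_pos hu, if_neg hv]
          rw [if_neg (fun h => h.1 hu)]
          ring
      · by_cases hv : bv e ∈ inner l
        · simp only [if_neg hu, if_pos hv]
          rw [if_neg (fun h => h.2 hv)]
          ring
        · simp only [if_neg hu, if_neg hv]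
          rw [if_pos ⟨hu, hv⟩, hc, proj_of_notMem (v := bu e) (by exact_mod_cast hu),
            proj_of_notMem (v := bv e) (by exact_mod_cast hv), sub_self (0 : T), cosT_zero]
          ring
    have e2 : (fun θ : Ginf => (∑ e : BI l, b / 2 *
        (F (bv e) - F (bu e) + (fF (bu e) - fF (bv e))) * (chi0 l e).s θ) ^ 2) =
        fun θ => (∑ e : BI l, b / 2 * (sg l e * F (out l e)) * (chi0 l e).s θ) ^ 2 := by
      funext θ
      congr 1
      refine Finset.sum_congr rfl fun e _ => ?_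
      simp only [hfF]
      unfold sg out
      by_cases hu : bu e ∈ inner l
      · by_cases hv : bv e ∈ inner l
        · simp only [if_pos hu, if_pos hv]
          ring
        · simp only [if_pos hu, if_neg hv]
          ring
      · by_cases hv : bv e ∈ inner l
        · simp only [if_neg hu, if_pos hv]
          ring
        · simp only [if_neg hu, if_neg hv]
          rw [hs, proj_of_notMem (v := bu e) (by exact_mod_cast hu),
            proj_of_notMem (v := bv e) (by exact_mod_cast hv), sub_self (0 : T), sinT_zero]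
          ring
    rw [e1, e2, gibbs_add muInf (fun _ => b / 2) (chi0 l) (cont_sumc (chi0 l) _)
      continuous_const, gibbs_const]
    ring
  have hpos : 0 ≤ ∑ e : BI l, if bu e ∉ inner l ∧ bv e ∉ inner l then
          b / 2 * (F (bv e) - F (bu e)) ^ 2 else 0 :=
    Finset.sum_nonneg fun e _ => by split_ifs <;> positivity
  have hQ : Qform muInf (fun _ => b / 2) (chi0 l) (fun e => F (bv e) - F (bu e)) ≤
      ∑ e : BI l, b / 2 * (F (bv e) - F (bu e)) ^ 2 := by
    unfold Qform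
    have h1 : gibbs muInf (fun _ => b / 2) (chi0 l)
        (fun x => ∑ e : BI l, b / 2 * (F (bv e) - F (bu e)) ^ 2 * (chi0 l e).c x) ≤
        gibbs muInf (fun _ => b / 2) (chi0 l)
        (fun _ => ∑ e : BI l, b / 2 * (F (bv e) - F (bu e)) ^ 2) := by
      refine gibbs_mono muInf (fun _ => b / 2) (chi0 l) (cont_sumc (chi0 l) _)
        continuous_const fun x => ?_
      refine Finset.sum_le_sum fun e _ => ?_
      exact mul_le_of_le_one_right (by positivity) ((le_abs_self _).trans ((chi0 l e).abs_c_le x))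
    rw [gibbs_const] at h1
    have h2 : 0 ≤ gibbs muInf (fun _ => b / 2) (chi0 l)
        (fun x => (∑ e : BI l, b / 2 * (F (bv e) - F (bu e)) * (chi0 l e).s x) ^ 2) := by
      have := gibbs_mono muInf (fun _ => b / 2) (chi0 l) (f := fun _ => (0 : ℝ))
        (g := fun x => (∑ e : BI l, b / 2 * (F (bv e) - F (bu e)) * (chi0 l e).s x) ^ 2)
        continuous_const ((cont_sums (chi0 l) _).pow 2) (fun x => sq_nonneg _)
      rwa [gibbs_const] at this
    linarith
  rw [hout] at hg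
  linarith


/-- distance to the boundary of the block -/
noncomputable def mdist (l : ℕ) (v : ℤ × ℤ) : ℝ :=
  min (min (v.1 : ℝ) ((l : ℝ) - v.1)) (min (v.2 : ℝ) ((l : ℝ) - v.2))

/-- cut-off near the boundary -/
noncomputable def cut (l R : ℕ) (v : ℤ × ℤ) : ℝ := max 0 (1 - mdist l v / R)

theorem bu_range {l : ℕ} (e : BI l) : (((e.1.1 : ℕ) : ℤ) ≤ (bu e).1 ∧ (bu e).1 ≤ ((e.1.1 : ℕ) : ℤ) + 1) ∧
    (((e.1.2 : ℕ) : ℤ) ≤ (bu e).2 ∧ (bu e).2 ≤ ((e.1.2 : ℕ) : ℤ) + 1) := by
  rcases e with ⟨⟨i, j⟩, ⟨o, s⟩⟩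
  unfold bu
  cases o <;> cases s <;> simp

theorem bv_range {l : ℕ} (e : BI l) : (((e.1.1 : ℕ) : ℤ) ≤ (bv e).1 ∧ (bv e).1 ≤ ((e.1.1 : ℕ) : ℤ) + 1) ∧
    (((e.1.2 : ℕ) : ℤ) ≤ (bv e).2 ∧ (bv e).2 ≤ ((e.1.2 : ℕ) : ℤ) + 1) := by
  rcases e with ⟨⟨i, j⟩, ⟨o, s⟩⟩
  unfold bv bu
  cases o <;> cases s <;> simp

/-- the closed block -/
def inBlock (l : ℕ) (v : ℤ × ℤ) : Prop := (0 ≤ v.1 ∧ v.1 ≤ l) ∧ (0 ≤ v.2 ∧ v.2 ≤ l)

theorem bu_block {l : ℕ} (e : BI l) : inBlock l (bu e) := by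
  have h := bu_range e
  have hi := e.1.1.2
  have hj := e.1.2.2
  unfold inBlock
  omega

theorem bv_block {l : ℕ} (e : BI l) : inBlock l (bv e) := by
  have h := bv_range e
  have hi := e.1.1.2
  have hj := e.1.2.2
  unfold inBlock
  omega

theorem mdist_nonneg {l : ℕ} {v : ℤ × ℤ} (h : inBlock l v) : 0 ≤ mdist l v := by
  obtain ⟨⟨h1, h2⟩, ⟨h3, h4⟩⟩ := h
  have h1' : (0 : ℝ) ≤ v.1 := by exact_mod_cast h1
  have h2' : (v.1 : ℝ) ≤ l := by exact_mod_cast h2
  have h3' : (0 : ℝ) ≤ v.2 := by exact_mod_cast h3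
  have h4' : (v.2 : ℝ) ≤ l := by exact_mod_cast h4
  unfold mdist
  exact le_min (le_min h1' (by linarith)) (le_min h3' (by linarith))

theorem mdist_bdry {l : ℕ} {v : ℤ × ℤ} (h : inBlock l v) (hv : v ∉ inner l) : mdist l v = 0 := by
  refine le_antisymm ?_ (mdist_nonneg h)
  obtain ⟨⟨h1, h2⟩, ⟨h3, h4⟩⟩ := h
  rw [mem_inner] at hv
  have hc : v.1 = 0 ∨ v.1 = l ∨ v.2 = 0 ∨ v.2 = l := by omega
  unfold mdist
  rcases hc with hc | hc | hc | hc
  · refine (min_le_left _ _).trans ((min_le_left _ _).trans ?_)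
    rw [hc]; simp
  · refine (min_le_left _ _).trans ((min_le_right _ _).trans ?_)
    rw [hc]; simp
  · refine (min_le_right _ _).trans ((min_le_left _ _).trans ?_)
    rw [hc]; simp
  · refine (min_le_right _ _).trans ((min_le_right _ _).trans ?_)
    rw [hc]; simp

theorem cut_nonneg (l R : ℕ) (v : ℤ × ℤ) : 0 ≤ cut l R v := le_max_left _ _

theorem cut_le_one {l R : ℕ} {v : ℤ × ℤ} (h : inBlock l v) : cut l R v ≤ 1 := by
  unfold cut
  refine max_le zero_le_one ?_
  have : 0 ≤ mdist l v / R := div_nonneg (mdist_nonneg h) (Nat.cast_nonneg _)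
  linarith

theorem cut_bdry {l R : ℕ} {v : ℤ × ℤ} (h : inBlock l v) (hv : v ∉ inner l) : cut l R v = 1 := by
  unfold cut
  rw [mdist_bdry h hv, zero_div, sub_zero]
  exact max_eq_right zero_le_one

theorem cut_far {l R : ℕ} (hR : 1 ≤ R) {v : ℤ × ℤ} (h : (R : ℝ) ≤ mdist l v) : cut l R v = 0 := by
  unfold cut
  have hR0 : (0 : ℝ) < R := by exact_mod_cast hR
  have : 1 ≤ mdist l v / R := by rw [le_div_iff₀ hR0]; linarith
  exact max_eq_left (by linarith)

theorem mdist_lip {l : ℕ} (e : BI l) : |mdist l (bv e) - mdist l (bu e)| ≤ 1 := by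
  have h1 : |((bv e).1 : ℝ) - ((bu e).1 : ℝ)| ≤ 1 := by
    unfold bv
    split_ifs <;> simp
  have h2 : |((bv e).2 : ℝ) - ((bu e).2 : ℝ)| ≤ 1 := by
    unfold bv
    split_ifs <;> simp
  unfold mdist
  refine (abs_min_sub_min_le_max _ _ _ _).trans (max_le ?_ ?_)
  · refine (abs_min_sub_min_le_max _ _ _ _).trans (max_le h1 ?_)
    have : (l : ℝ) - (bv e).1 - ((l : ℝ) - (bu e).1) = -(((bv e).1 : ℝ) - (bu e).1) := by ring
    rw [this, abs_neg]
    exact h1
  · refine (abs_min_sub_min_le_max _ _ _ _).trans (max_le h2 ?_)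
    have : (l : ℝ) - (bv e).2 - ((l : ℝ) - (bu e).2) = -(((bv e).2 : ℝ) - (bu e).2) := by ring
    rw [this, abs_neg]
    exact h2

theorem cut_lip {l R : ℕ} (hR : 1 ≤ R) (e : BI l) : |cut l R (bv e) - cut l R (bu e)| ≤ 1 / R := by
  have hR0 : (0 : ℝ) < R := by exact_mod_cast hR
  unfold cut
  refine (abs_max_sub_max_le_max _ _ _ _).trans (max_le ?_ ?_)
  · rw [sub_self, abs_zero]; positivity
  · have : 1 - mdist l (bv e) / R - (1 - mdist l (bu e) / R) =
        -((mdist l (bv e) - mdist l (bu e)) / R) := by ring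
    rw [this, abs_neg, abs_div, abs_of_pos hR0]
    exact div_le_div_of_nonneg_right (mdist_lip e) hR0.le

/-- cells close to the boundary -/
noncomputable def nb (l R : ℕ) (e : BI l) : ℝ :=
  (if (e.1.1 : ℕ) ≤ R then 1 else 0) + (if l ≤ (e.1.1 : ℕ) + R + 1 then 1 else 0) +
    ((if (e.1.2 : ℕ) ≤ R then 1 else 0) + (if l ≤ (e.1.2 : ℕ) + R + 1 then 1 else 0))

theorem nb_nonneg (l R : ℕ) (e : BI l) : 0 ≤ nb l R e := by
  unfold nb
  refine add_nonneg (add_nonneg ?_ ?_) (add_nonneg ?_ ?_) <;> split_ifs <;> norm_num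

theorem one_le_nb_of {l R : ℕ} {e : BI l}
    (h : (e.1.1 : ℕ) ≤ R ∨ l ≤ (e.1.1 : ℕ) + R + 1 ∨ (e.1.2 : ℕ) ≤ R ∨
      l ≤ (e.1.2 : ℕ) + R + 1) : 1 ≤ nb l R e := by
  unfold nb
  have a1 : (0 : ℝ) ≤ (if (e.1.1 : ℕ) ≤ R then 1 else 0) := by split_ifs <;> norm_num
  have a2 : (0 : ℝ) ≤ (if l ≤ (e.1.1 : ℕ) + R + 1 then 1 else 0) := by split_ifs <;> norm_num
  have a3 : (0 : ℝ) ≤ (if (e.1.2 : ℕ) ≤ R then 1 else 0) := by split_ifs <;> norm_num
  have a4 : (0 : ℝ) ≤ (if l ≤ (e.1.2 : ℕ) + R + 1 then 1 else 0) := by split_ifs <;> norm_num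
  rcases h with h | h | h | h
  · rw [if_pos h]; linarith
  · rw [if_pos h] at a2 ⊢; linarith
  · rw [if_pos h] at a3 ⊢; linarith
  · rw [if_pos h] at a4 ⊢; linarith

theorem one_le_nb {l R : ℕ} {e : BI l} {v : ℤ × ℤ}
    (hv : (((e.1.1 : ℕ) : ℤ) ≤ v.1 ∧ v.1 ≤ ((e.1.1 : ℕ) : ℤ) + 1) ∧
    (((e.1.2 : ℕ) : ℤ) ≤ v.2 ∧ v.2 ≤ ((e.1.2 : ℕ) : ℤ) + 1)) (h : mdist l v < R) :
    1 ≤ nb l R e := by
  apply one_le_nb_of
  unfold mdist at h
  rw [min_lt_iff, min_lt_iff, min_lt_iff] at h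
  rcases h with (h | h) | (h | h)
  · have : v.1 < R := by exact_mod_cast h
    left; omega
  · have : (l : ℤ) - v.1 < R := by exact_mod_cast h
    right; left; omega
  · have : v.2 < R := by exact_mod_cast h
    right; right; left; omega
  · have : (l : ℤ) - v.2 < R := by exact_mod_cast h
    right; right; right; omega

theorem sum_fin_le (l n : ℕ) : ∑ i : Fin l, (if (i : ℕ) ≤ n then (1 : ℝ) else 0) ≤ n + 1 := by
  rw [Finset.sum_boole]
  have h : (Finset.univ.filter fun i : Fin l => (i : ℕ) ≤ n).card ≤ (Finset.range (n + 1)).card := by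
    refine Finset.card_le_card_of_injOn (fun i => (i : ℕ)) ?_ ?_
    · intro i hi
      simp only [Finset.coe_filter, Finset.mem_univ, true_and, Set.mem_ofPred_eq] at hi
      simp only [Finset.coe_range, Set.mem_Iio]
      omega
    · intro i _ j _ hij
      exact Fin.ext hij
  rw [Finset.card_range] at h
  exact_mod_cast h

theorem sum_fin_ge (l n : ℕ) : ∑ i : Fin l, (if l ≤ (i : ℕ) + n + 1 then (1 : ℝ) else 0) ≤ n + 1 := by
  rw [Finset.sum_boole]
  have h : (Finset.univ.filter fun i : Fin l => l ≤ (i : ℕ) + n + 1).card ≤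
      (Finset.range (n + 1)).card := by
    refine Finset.card_le_card_of_injOn (fun i => l - 1 - (i : ℕ)) ?_ ?_
    · intro i hi
      simp only [Finset.coe_filter, Finset.mem_univ, true_and, Set.mem_ofPred_eq] at hi
      simp only [Finset.coe_range, Set.mem_Iio]
      omega
    · intro i _ j _ hij
      have := i.2
      have := j.2
      simp only at hij
      exact Fin.ext (by omega)
  rw [Finset.card_range] at h
  exact_mod_cast h

theorem sum_nb (l R : ℕ) : ∑ e : BI l, nb l R e ≤ 16 * l * (R + 1) := by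
  have hl : (0 : ℝ) ≤ l := Nat.cast_nonneg l
  have k1 : ∀ F : Fin l → ℝ, ∑ e : BI l, F e.1.1 = 4 * (l * ∑ i, F i) := by
    intro F
    have h1 : ∑ e : BI l, F e.1.1 = ∑ c : Fin l × Fin l, 4 * F c.1 := by
      rw [Fintype.sum_prod_type]
      refine Finset.sum_congr rfl fun c _ => ?_
      change ∑ _y : Bool × Bool, F c.1 = 4 * F c.1
      rw [Finset.sum_const, nsmul_eq_mul]
      norm_num
    rw [h1, ← Finset.mul_sum, Fintype.sum_prod_type]
    congr 1
    rw [Finset.mul_sum]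
    refine Finset.sum_congr rfl fun i _ => ?_
    change ∑ _y : Fin l, F i = l * F i
    rw [Finset.sum_const, nsmul_eq_mul, Finset.card_univ, Fintype.card_fin]
  have k2 : ∀ F : Fin l → ℝ, ∑ e : BI l, F e.1.2 = 4 * (l * ∑ i, F i) := by
    intro F
    have h1 : ∑ e : BI l, F e.1.2 = ∑ c : Fin l × Fin l, 4 * F c.2 := by
      rw [Fintype.sum_prod_type]
      refine Finset.sum_congr rfl fun c _ => ?_
      change ∑ _y : Bool × Bool, F c.2 = 4 * F c.2
      rw [Finset.sum_const, nsmul_eq_mul]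
      norm_num
    rw [h1, ← Finset.mul_sum, Fintype.sum_prod_type]
    congr 1
    change ∑ _x : Fin l, ∑ y : Fin l, F y = l * ∑ i, F i
    rw [Finset.sum_const, nsmul_eq_mul, Finset.card_univ, Fintype.card_fin]
  have q1 := mul_le_mul_of_nonneg_left (sum_fin_le l R) hl
  have q2 := mul_le_mul_of_nonneg_left (sum_fin_ge l R) hl
  unfold nb
  rw [Finset.sum_add_distrib, Finset.sum_add_distrib, Finset.sum_add_distrib,
    k1 (fun i => if (i : ℕ) ≤ R then (1 : ℝ) else 0),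
    k1 (fun i => if l ≤ (i : ℕ) + R + 1 then (1 : ℝ) else 0),
    k2 (fun i => if (i : ℕ) ≤ R then (1 : ℝ) else 0),
    k2 (fun i => if l ≤ (i : ℕ) + R + 1 then (1 : ℝ) else 0)]
  linarith

/-- Dirichlet energy of a bounded slowly varying function times the cut-off -/
theorem energy_le {l R : ℕ} (hR : 1 ≤ R) {b : ℝ} (hb : 0 ≤ b) (s : ℤ × ℤ → ℝ)
    (hs1 : ∀ v, |s v| ≤ 1) (hs2 : ∀ e : BI l, |s (bv e) - s (bu e)| ≤ 1 / R) :
    ∑ e : BI l, b / 2 * (s (bv e) * cut l R (bv e) - s (bu e) * cut l R (bu e)) ^ 2 ≤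
      b / 2 * (4 / (R : ℝ) ^ 2) * (16 * l * (R + 1)) := by
  have hR0 : (0 : ℝ) < R := by exact_mod_cast hR
  have hpt : ∀ e : BI l, (s (bv e) * cut l R (bv e) - s (bu e) * cut l R (bu e)) ^ 2 ≤
      4 / (R : ℝ) ^ 2 * nb l R e := by
    intro e
    by_cases hn : mdist l (bu e) < R ∨ mdist l (bv e) < R
    · have h1 : 1 ≤ nb l R e := by
        rcases hn with hn | hn
        · exact one_le_nb (bu_range e) hn
        · exact one_le_nb (bv_range e) hn
      have h2 : |s (bv e) * cut l R (bv e) - s (bu e) * cut l R (bu e)| ≤ 2 / R := by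
        have e1 : s (bv e) * cut l R (bv e) - s (bu e) * cut l R (bu e) =
            (s (bv e) - s (bu e)) * cut l R (bv e) +
              s (bu e) * (cut l R (bv e) - cut l R (bu e)) := by ring
        rw [e1]
        refine (abs_add_le _ _).trans ?_
        rw [abs_mul, abs_mul, abs_of_nonneg (cut_nonneg l R (bv e))]
        have a1 : |s (bv e) - s (bu e)| * cut l R (bv e) ≤ 1 / R * 1 :=
          mul_le_mul (hs2 e) (cut_le_one (bv_block e)) (cut_nonneg _ _ _) (by positivity)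
        have a2 : |s (bu e)| * |cut l R (bv e) - cut l R (bu e)| ≤ 1 * (1 / R) :=
          mul_le_mul (hs1 _) (cut_lip hR e) (abs_nonneg _) zero_le_one
        have e2 : (2 : ℝ) / R = 1 / R * 1 + 1 * (1 / R) := by ring
        rw [e2]
        exact add_le_add a1 a2
      have h3 : (s (bv e) * cut l R (bv e) - s (bu e) * cut l R (bu e)) ^ 2 ≤ (2 / (R : ℝ)) ^ 2 := by
        rw [← sq_abs]
        exact pow_le_pow_left₀ (abs_nonneg _) h2 2
      have h4 : (2 / (R : ℝ)) ^ 2 = 4 / (R : ℝ) ^ 2 := by rw [div_pow]; norm_num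
      rw [h4] at h3
      have h5 : (0 : ℝ) ≤ 4 / (R : ℝ) ^ 2 := by positivity
      exact h3.trans (le_mul_of_one_le_right h5 h1)
    · rw [not_or, not_lt, not_lt] at hn
      rw [cut_far hR hn.1, cut_far hR hn.2]
      have := nb_nonneg l R e
      have h5 : (0 : ℝ) ≤ 4 / (R : ℝ) ^ 2 := by positivity
      have h6 := mul_nonneg h5 this
      linarith
  calc ∑ e : BI l, b / 2 * (s (bv e) * cut l R (bv e) - s (bu e) * cut l R (bu e)) ^ 2
      ≤ ∑ e : BI l, b / 2 * (4 / (R : ℝ) ^ 2 * nb l R e) :=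
        Finset.sum_le_sum fun e _ => mul_le_mul_of_nonneg_left (hpt e) (by positivity)
    _ = b / 2 * (4 / (R : ℝ) ^ 2) * ∑ e : BI l, nb l R e := by
        rw [Finset.mul_sum]
        exact Finset.sum_congr rfl fun e _ => by ring
    _ ≤ b / 2 * (4 / (R : ℝ) ^ 2) * (16 * l * (R + 1)) :=
        mul_le_mul_of_nonneg_left (sum_nb l R) (by positivity)

theorem trig_bound {a b : ℝ} (h : |a - b| ≤ Real.pi) :
    (a - b) ^ 2 ≤ Real.pi ^ 2 / 4 * ((Real.sin a - Real.sin b) ^ 2 +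
      (Real.cos a - Real.cos b) ^ 2) := by
  have h1 := Real.cos_le_one_sub_mul_cos_sq h
  have h2 : (Real.sin a - Real.sin b) ^ 2 + (Real.cos a - Real.cos b) ^ 2 =
      2 - 2 * Real.cos (a - b) := by
    rw [Real.cos_sub]
    have := Real.sin_sq_add_cos_sq a
    have := Real.sin_sq_add_cos_sq b
    linarith only [Real.sin_sq_add_cos_sq a, Real.sin_sq_add_cos_sq b]
  rw [h2]
  have hpi : 0 < Real.pi ^ 2 := by positivity
  have h3 : Real.pi ^ 2 / 4 * (4 / Real.pi ^ 2 * (a - b) ^ 2) = (a - b) ^ 2 := by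
    field_simp
  have h4 : 4 / Real.pi ^ 2 * (a - b) ^ 2 ≤ 2 - 2 * Real.cos (a - b) := by
    have : 4 / Real.pi ^ 2 * (a - b) ^ 2 = 2 * (2 / Real.pi ^ 2 * (a - b) ^ 2) := by ring
    rw [this]
    linarith only [h1]
  calc (a - b) ^ 2 = Real.pi ^ 2 / 4 * (4 / Real.pi ^ 2 * (a - b) ^ 2) := h3.symm
    _ ≤ Real.pi ^ 2 / 4 * (2 - 2 * Real.cos (a - b)) :=
        mul_le_mul_of_nonneg_left h4 (by positivity)

/-- sine data with the cut-off -/
noncomputable def Sf (l R : ℕ) (v : ℤ × ℤ) : ℝ := Real.sin ((v.1 : ℝ) / R) * cut l R v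

/-- cosine data with the cut-off -/
noncomputable def Cf (l R : ℕ) (v : ℤ × ℤ) : ℝ := Real.cos ((v.1 : ℝ) / R) * cut l R v

theorem fst_lip {l R : ℕ} (hR : 1 ≤ R) (e : BI l) :
    |((bv e).1 : ℝ) / R - ((bu e).1 : ℝ) / R| ≤ 1 / R := by
  have hR0 : (0 : ℝ) < R := by exact_mod_cast hR
  have h1 : |((bv e).1 : ℝ) - ((bu e).1 : ℝ)| ≤ 1 := by
    unfold bv
    split_ifs <;> simp
  rw [← sub_div, abs_div, abs_of_pos hR0]
  exact div_le_div_of_nonneg_right h1 hR0.le

theorem energy_S {l R : ℕ} (hR : 1 ≤ R) {b : ℝ} (hb : 0 ≤ b) :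
    ∑ e : BI l, b / 2 * (Sf l R (bv e) - Sf l R (bu e)) ^ 2 ≤
      b / 2 * (4 / (R : ℝ) ^ 2) * (16 * l * (R + 1)) :=
  energy_le hR hb (fun v => Real.sin ((v.1 : ℝ) / R)) (fun _ => Real.abs_sin_le_one _)
    (fun e => (Real.abs_sin_sub_sin_le _ _).trans (fst_lip hR e))

theorem energy_C {l R : ℕ} (hR : 1 ≤ R) {b : ℝ} (hb : 0 ≤ b) :
    ∑ e : BI l, b / 2 * (Cf l R (bv e) - Cf l R (bu e)) ^ 2 ≤
      b / 2 * (4 / (R : ℝ) ^ 2) * (16 * l * (R + 1)) :=
  energy_le hR hb (fun v => Real.cos ((v.1 : ℝ) / R)) (fun _ => Real.abs_cos_le_one _)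
    (fun e => (Real.abs_cos_sub_cos_le _ _).trans (fst_lip hR e))

theorem out_block {l : ℕ} (e : BI l) : inBlock l (out l e) := by
  unfold out
  split_ifs
  · exact bv_block e
  · exact bu_block e

theorem out_notMem {l : ℕ} {e : BI l} (h : bu e ∉ inner l ∨ bv e ∉ inner l) :
    out l e ∉ inner l := by
  unfold out
  split_ifs with hu
  · rcases h with h | h
    · exact absurd hu h
    · exact h
  · exact hu

/-- near pairs by the trigonometric data, far pairs by the mass -/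
theorem pair_split {l R : ℕ} (hR : 1 ≤ R) {b : ℝ} (hb : 0 < b) (hm : 0 < mass b) (e e' : BI l) :
    1 / 2 * (b / 2) ^ 2 * (pe l e - pe l e') ^ 2 * GG l b e e' ≤
      Real.pi ^ 2 / 4 * (R : ℝ) ^ 2 *
        (1 / 2 * (b / 2) ^ 2 * (Sf l R (out l e) - Sf l R (out l e')) ^ 2 * GG l b e e' +
          1 / 2 * (b / 2) ^ 2 * (Cf l R (out l e) - Cf l R (out l e')) ^ 2 * GG l b e e') +
      b ^ 2 / 16 * ((l : ℝ) ^ 2 * Real.exp (-(mass b * R))) * (bcell l e * bcell l e') := by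
  have hR0 : (0 : ℝ) < R := by exact_mod_cast hR
  have hG := GG_nonneg l hb.le e e'
  have hfar0 : 0 ≤ b ^ 2 / 16 * ((l : ℝ) ^ 2 * Real.exp (-(mass b * R))) *
      (bcell l e * bcell l e') :=
    mul_nonneg (by positivity) (mul_nonneg (bcell_nonneg l e) (bcell_nonneg l e'))
  have hnear0 : 0 ≤ Real.pi ^ 2 / 4 * (R : ℝ) ^ 2 *
        (1 / 2 * (b / 2) ^ 2 * (Sf l R (out l e) - Sf l R (out l e')) ^ 2 * GG l b e e' +
          1 / 2 * (b / 2) ^ 2 * (Cf l R (out l e) - Cf l R (out l e')) ^ 2 * GG l b e e') := by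
    positivity
  rcases sg_cases l e with h | ⟨h1, h2, h3, h4, h5⟩
  · rw [GG_zero_left b e' h, mul_zero] at *
    linarith
  rcases sg_cases l e' with h | ⟨h1', h2', h3', h4', h5'⟩
  · rw [GG_zero_right b e h, mul_zero] at *
    linarith
  have ho := cut_bdry (R := R) (out_block e) (out_notMem h5)
  have ho' := cut_bdry (R := R) (out_block e') (out_notMem h5')
  have eS : Sf l R (out l e) = Real.sin (pe l e / R) := by
    unfold Sf; rw [ho, mul_one, pe_out]
  have eS' : Sf l R (out l e') = Real.sin (pe l e' / R) := by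
    unfold Sf; rw [ho', mul_one, pe_out]
  have eC : Cf l R (out l e) = Real.cos (pe l e / R) := by
    unfold Cf; rw [ho, mul_one, pe_out]
  have eC' : Cf l R (out l e') = Real.cos (pe l e' / R) := by
    unfold Cf; rw [ho', mul_one, pe_out]
  by_cases hd : |pe l e / R - pe l e' / R| ≤ Real.pi
  · have ht := trig_bound hd
    rw [← eS, ← eS', ← eC, ← eC'] at ht
    have hx : (pe l e - pe l e') ^ 2 = (R : ℝ) ^ 2 * (pe l e / R - pe l e' / R) ^ 2 := by
      field_simp
    have hk : 0 ≤ 1 / 2 * (b / 2) ^ 2 * GG l b e e' * (R : ℝ) ^ 2 := by positivity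
    have h6 := mul_le_mul_of_nonneg_left ht hk
    have h7 : 1 / 2 * (b / 2) ^ 2 * (pe l e - pe l e') ^ 2 * GG l b e e' =
        1 / 2 * (b / 2) ^ 2 * GG l b e e' * (R : ℝ) ^ 2 * (pe l e / R - pe l e' / R) ^ 2 := by
      rw [hx]; ring
    have h8 : Real.pi ^ 2 / 4 * (R : ℝ) ^ 2 *
        (1 / 2 * (b / 2) ^ 2 * (Sf l R (out l e) - Sf l R (out l e')) ^ 2 * GG l b e e' +
          1 / 2 * (b / 2) ^ 2 * (Cf l R (out l e) - Cf l R (out l e')) ^ 2 * GG l b e e') =
        1 / 2 * (b / 2) ^ 2 * GG l b e e' * (R : ℝ) ^ 2 * (Real.pi ^ 2 / 4 *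
          ((Sf l R (out l e) - Sf l R (out l e')) ^ 2 +
            (Cf l R (out l e) - Cf l R (out l e')) ^ 2)) := by ring
    rw [h7, h8]
    linarith
  · rw [not_le] at hd
    have hg : GG l b e e' ≤ 1 / 2 * XY.C b (xin l e' - xin l e) :=
      gibbs_tw_le l hb.le e e' h1 h1' h3 h3'
    have hC := XY.C_le_exp hb (xin l e' - xin l e)
    have hpd : Real.pi * R < |pe l e - pe l e'| := by
      rw [← sub_div, abs_div, abs_of_pos hR0, lt_div_iff₀ hR0] at hd
      exact hd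
    have hnm : (R : ℝ) ≤ XY.nm (xin l e' - xin l e) := by
      have h6 := XY.abs_fst_le_nm (xin l e' - xin l e)
      rw [Prod.fst_sub] at h6
      push_cast at h6
      have hpi := Real.pi_gt_three
      have hR1 : (1 : ℝ) ≤ R := by exact_mod_cast hR
      have h7 : 3 * (R : ℝ) ≤ Real.pi * R := by nlinarith only [hpi, hR1]
      rcases abs_cases (pe l e - pe l e') with ⟨ha, _⟩ | ⟨ha, _⟩ <;> rw [ha] at hpd <;>
        rw [abs_le] at h4 h4' h6 <;>
        linarith only [h4.1, h4'.2, h6.2, h4.2, h4'.1, h6.1, hpd, h7, hR1]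
    have hexp : Real.exp (-(mass b * XY.nm (xin l e' - xin l e))) ≤
        Real.exp (-(mass b * R)) := by
      apply Real.exp_le_exp.2
      have := mul_le_mul_of_nonneg_left hnm hm.le
      linarith only [this]
    have hg2 : GG l b e e' ≤ 1 / 2 * Real.exp (-(mass b * R)) := by
      linarith only [hg, hC, hexp]
    have hpl : (pe l e - pe l e') ^ 2 ≤ (l : ℝ) ^ 2 := by
      have hb1 := out_block e
      have hb2 := out_block e'
      rw [pe_out, pe_out]
      obtain ⟨⟨a1, a2⟩, _⟩ := hb1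
      obtain ⟨⟨a3, a4⟩, _⟩ := hb2
      have a1' : (0 : ℝ) ≤ (out l e).1 := by exact_mod_cast a1
      have a2' : ((out l e).1 : ℝ) ≤ l := by exact_mod_cast a2
      have a3' : (0 : ℝ) ≤ (out l e').1 := by exact_mod_cast a3
      have a4' : ((out l e').1 : ℝ) ≤ l := by exact_mod_cast a4
      rw [← sq_abs]
      refine pow_le_pow_left₀ (abs_nonneg _) ?_ 2
      rw [abs_le]
      constructor <;> linarith only [a1', a2', a3', a4']
    have hb1 := one_le_bcell h5
    have hb2 := one_le_bcell h5'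
    have hbb : 1 ≤ bcell l e * bcell l e' := one_le_mul_of_one_le_of_one_le hb1 hb2
    have hk : (0 : ℝ) ≤ 1 / 2 * (b / 2) ^ 2 := by positivity
    have g1 : 1 / 2 * (b / 2) ^ 2 * (pe l e - pe l e') ^ 2 * GG l b e e' ≤
        1 / 2 * (b / 2) ^ 2 * (l : ℝ) ^ 2 * (1 / 2 * Real.exp (-(mass b * R))) :=
      mul_le_mul (mul_le_mul_of_nonneg_left hpl hk) hg2 hG (by positivity)
    have g2 : 1 / 2 * (b / 2) ^ 2 * (l : ℝ) ^ 2 * (1 / 2 * Real.exp (-(mass b * R))) =
        b ^ 2 / 16 * ((l : ℝ) ^ 2 * Real.exp (-(mass b * R))) := by ring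
    have g3 : b ^ 2 / 16 * ((l : ℝ) ^ 2 * Real.exp (-(mass b * R))) ≤
        b ^ 2 / 16 * ((l : ℝ) ^ 2 * Real.exp (-(mass b * R))) * (bcell l e * bcell l e') :=
      le_mul_of_one_le_right (by positivity) hbb
    linarith only [g1, g2, g3, hnear0]

/-- the stiffness of the wired block at positive mass, for all scales at once -/
theorem stiff_scale {b : ℝ} (hb : 0 < b) (hm : 0 < mass b) {l R : ℕ} (hR : 1 ≤ R) (hl : 1 ≤ l) :
    stiff l b ≤ (8 + 32 * Real.pi ^ 2) * b * ((R : ℝ) / l) +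
      16 * b ^ 2 * ((l : ℝ) ^ 2 * Real.exp (-(mass b * R))) := by
  have hR0 : (0 : ℝ) < R := by exact_mod_cast hR
  have hR1 : (1 : ℝ) ≤ R := by exact_mod_cast hR
  have hl0 : (0 : ℝ) < l := by exact_mod_cast hl
  have h1 := stiff_boundary l b hl
  have h2 : ∑ e : BI l, b / 2 * tau l e ≤ b / 2 * (16 * l) := by
    rw [← Finset.mul_sum]
    refine mul_le_mul_of_nonneg_left ?_ (by positivity)
    exact (Finset.sum_le_sum fun e _ => tau_le l e).trans (sum_bcell l)
  have hS := (bform_le l hb.le (Sf l R)).trans (energy_S hR hb.le)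
  have hC := (bform_le l hb.le (Cf l R)).trans (energy_C hR hb.le)
  have h3 : ∑ e : BI l, ∑ e' : BI l, 1 / 2 * (b / 2) ^ 2 * (pe l e - pe l e') ^ 2 *
      GG l b e e' ≤
      Real.pi ^ 2 / 4 * (R : ℝ) ^ 2 *
        ((∑ e : BI l, ∑ e' : BI l, 1 / 2 * (b / 2) ^ 2 *
          (Sf l R (out l e) - Sf l R (out l e')) ^ 2 * GG l b e e') +
        ∑ e : BI l, ∑ e' : BI l, 1 / 2 * (b / 2) ^ 2 *
          (Cf l R (out l e) - Cf l R (out l e')) ^ 2 * GG l b e e') +
      b ^ 2 / 16 * ((l : ℝ) ^ 2 * Real.exp (-(mass b * R))) *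
        ((∑ e : BI l, bcell l e) * ∑ e : BI l, bcell l e) := by
    rw [Finset.sum_mul_sum, Finset.mul_sum, ← Finset.sum_add_distrib, Finset.mul_sum,
      ← Finset.sum_add_distrib]
    refine Finset.sum_le_sum fun e _ => ?_
    rw [← Finset.sum_add_distrib, Finset.mul_sum, Finset.mul_sum, ← Finset.sum_add_distrib]
    exact Finset.sum_le_sum fun e' _ => pair_split hR hb hm e e'
  have hB0 : 0 ≤ ∑ e : BI l, bcell l e := Finset.sum_nonneg fun e _ => bcell_nonneg l e
  have h4 : (∑ e : BI l, bcell l e) * ∑ e : BI l, bcell l e ≤ (16 * l) * (16 * l) :=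
    mul_le_mul (sum_bcell l) (sum_bcell l) hB0 (by positivity)
  have h5 : b ^ 2 / 16 * ((l : ℝ) ^ 2 * Real.exp (-(mass b * R))) *
        ((∑ e : BI l, bcell l e) * ∑ e : BI l, bcell l e) ≤
      b ^ 2 / 16 * ((l : ℝ) ^ 2 * Real.exp (-(mass b * R))) * ((16 * l) * (16 * l)) :=
    mul_le_mul_of_nonneg_left h4 (by positivity)
  have h6 : Real.pi ^ 2 / 4 * (R : ℝ) ^ 2 *
        ((∑ e : BI l, ∑ e' : BI l, 1 / 2 * (b / 2) ^ 2 *
          (Sf l R (out l e) - Sf l R (out l e')) ^ 2 * GG l b e e') +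
        ∑ e : BI l, ∑ e' : BI l, 1 / 2 * (b / 2) ^ 2 *
          (Cf l R (out l e) - Cf l R (out l e')) ^ 2 * GG l b e e') ≤
      Real.pi ^ 2 / 4 * (R : ℝ) ^ 2 * (b / 2 * (4 / (R : ℝ) ^ 2) * (16 * l * (R + 1)) +
        b / 2 * (4 / (R : ℝ) ^ 2) * (16 * l * (R + 1))) :=
    mul_le_mul_of_nonneg_left (add_le_add hS hC) (by positivity)
  have h7 : Real.pi ^ 2 / 4 * (R : ℝ) ^ 2 * (b / 2 * (4 / (R : ℝ) ^ 2) * (16 * l * (R + 1)) +
        b / 2 * (4 / (R : ℝ) ^ 2) * (16 * l * (R + 1))) =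
      16 * Real.pi ^ 2 * b * l * (R + 1) := by
    field_simp
    ring
  have h8 : 16 * Real.pi ^ 2 * b * l * (R + 1) ≤ 32 * Real.pi ^ 2 * b * l * R := by
    have : 0 ≤ 16 * Real.pi ^ 2 * b * l * (R - 1) :=
      mul_nonneg (by positivity) (by linarith only [hR1])
    nlinarith only [this]
  have h9 : b / 2 * (16 * l) ≤ 8 * b * l * R := by
    have : 0 ≤ 8 * b * l * (R - 1) := mul_nonneg (by positivity) (by linarith only [hR1])
    nlinarith only [this]
  have h10 : (l : ℝ) ^ 2 * stiff l b ≤ (8 + 32 * Real.pi ^ 2) * b * l * R +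
      16 * b ^ 2 * ((l : ℝ) ^ 2 * Real.exp (-(mass b * R))) * (l : ℝ) ^ 2 := by
    have hGG : ∑ e : BI l, ∑ e' : BI l, 1 / 2 * (b / 2) ^ 2 * (pe l e - pe l e') ^ 2 *
        gibbs muInf (fun _ => b / 2) (chi0 l) (fun θ => tw l e θ * tw l e' θ) =
        ∑ e : BI l, ∑ e' : BI l, 1 / 2 * (b / 2) ^ 2 * (pe l e - pe l e') ^ 2 *
        GG l b e e' := rfl
    rw [h1, hGG]
    rw [h7] at h6
    have h11 : b ^ 2 / 16 * ((l : ℝ) ^ 2 * Real.exp (-(mass b * R))) * ((16 * l) * (16 * l)) =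
        16 * b ^ 2 * ((l : ℝ) ^ 2 * Real.exp (-(mass b * R))) * (l : ℝ) ^ 2 := by ring
    rw [h11] at h5
    linarith only [h2, h3, h5, h6, h8, h9]
  have hl2 : (0 : ℝ) < (l : ℝ) ^ 2 := by positivity
  have h12 : (l : ℝ) ^ 2 * ((8 + 32 * Real.pi ^ 2) * b * ((R : ℝ) / l) +
      16 * b ^ 2 * ((l : ℝ) ^ 2 * Real.exp (-(mass b * R)))) =
      (8 + 32 * Real.pi ^ 2) * b * l * R +
      16 * b ^ 2 * ((l : ℝ) ^ 2 * Real.exp (-(mass b * R))) * (l : ℝ) ^ 2 := by
    field_simp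
  rw [← h12] at h10
  exact le_of_mul_le_mul_left h10 hl2

/-- the same with a constant uniform on bounded sets of inverse temperatures -/
theorem r4 : ∀ B : ℝ, 0 < B → ∃ C : ℝ, 0 ≤ C ∧ ∀ b : ℝ, 0 < b → b ≤ B → 0 < mass b →
    ∀ l R : ℕ, 1 ≤ R → R ≤ l →
      stiff l b ≤ C * ((R : ℝ) / l + (l : ℝ) ^ 3 * Real.exp (-(mass b * R))) := by
  intro B hB
  refine ⟨(8 + 32 * Real.pi ^ 2) * B + 16 * B ^ 2, by positivity, ?_⟩
  intro b hb hbB hm l R hR hRl
  have hl : 1 ≤ l := hR.trans hRl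
  have hl1 : (1 : ℝ) ≤ l := by exact_mod_cast hl
  have h := stiff_scale hb hm hR hl
  have hx : 0 ≤ (R : ℝ) / l := by positivity
  have hE : 0 < Real.exp (-(mass b * R)) := Real.exp_pos _
  have h1 : (8 + 32 * Real.pi ^ 2) * b * ((R : ℝ) / l) ≤
      ((8 + 32 * Real.pi ^ 2) * B + 16 * B ^ 2) * ((R : ℝ) / l) := by
    refine mul_le_mul_of_nonneg_right ?_ hx
    have h2 : (8 + 32 * Real.pi ^ 2) * b ≤ (8 + 32 * Real.pi ^ 2) * B :=
      mul_le_mul_of_nonneg_left hbB (by positivity)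
    have h3 : 0 ≤ 16 * B ^ 2 := by positivity
    linarith only [h2, h3]
  have h2 : 16 * b ^ 2 * ((l : ℝ) ^ 2 * Real.exp (-(mass b * R))) ≤
      ((8 + 32 * Real.pi ^ 2) * B + 16 * B ^ 2) * ((l : ℝ) ^ 3 * Real.exp (-(mass b * R))) := by
    have a1 : 16 * b ^ 2 ≤ (8 + 32 * Real.pi ^ 2) * B + 16 * B ^ 2 := by
      have := pow_le_pow_left₀ hb.le hbB 2
      have : 0 ≤ (8 + 32 * Real.pi ^ 2) * B := by positivity
      linarith
    have a2 : (l : ℝ) ^ 2 * Real.exp (-(mass b * R)) ≤ (l : ℝ) ^ 3 * Real.exp (-(mass b * R)) :=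
      mul_le_mul_of_nonneg_right (pow_le_pow_right₀ hl1 (by norm_num)) hE.le
    exact mul_le_mul a1 a2 (by positivity) (by positivity)
  rw [mul_add]
  exact h.trans (add_le_add h1 h2)

end Vale.Agent.P159.H670
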