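import Vale.Agent.P159.H454.Final
import Vale.Agent.P159.Helicity

/-!
Decay of the charge two expectation of a bond in the wired block.
-/

open MeasureTheory Filter Topology
open scoped BigOperators

namespace Vale.Agent.P159.H670

open Vale.Agent.P159 Vale.Agent.P159.UJ

theorem sum_enlarge (N M : ℕ) (h : ℕ → ℕ → ℝ) (c : ℝ)
    (hc : ∀ i j, (N ≤ i ∨ N ≤ j) → h i j = c) :
    ∑ i ∈ Finset.range (N + M), ∑ j ∈ Finset.range (N + M), h i j =
      ∑ i ∈ Finset.range N, ∑ j ∈ Finset.range N, h i j +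
        c * (((N : ℝ) + M) ^ 2 - (N : ℝ) ^ 2) := by
  rw [Finset.sum_range_add]
  have h1 : ∀ i ∈ Finset.range N, ∑ j ∈ Finset.range (N + M), h i j =
      ∑ j ∈ Finset.range N, h i j + M * c := by
    intro i _
    rw [Finset.sum_range_add]
    congr 1
    rw [Finset.sum_congr rfl fun j _ => hc i (N + j) (Or.inr (Nat.le_add_right _ _))]
    rw [Finset.sum_const, Finset.card_range, nsmul_eq_mul]
  have h2 : ∀ i ∈ Finset.range M, ∑ j ∈ Finset.range (N + M), h (N + i) j =
      ((N : ℝ) + M) * c := by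
    intro i _
    rw [Finset.sum_congr rfl fun j _ => hc (N + i) j (Or.inl (Nat.le_add_right _ _))]
    rw [Finset.sum_const, Finset.card_range, nsmul_eq_mul]
    push_cast
    ring
  rw [Finset.sum_congr rfl h1, Finset.sum_congr rfl h2, Finset.sum_add_distrib,
    Finset.sum_const, Finset.sum_const, Finset.card_range, Finset.card_range, nsmul_eq_mul,
    nsmul_eq_mul]
  ring

theorem proj_inner_zero {N : ℕ} {v : ℤ × ℤ} (h : v.1 ≤ 0 ∨ (N : ℤ) ≤ v.1 ∨ v.2 ≤ 0 ∨ (N : ℤ) ≤ v.2)
    (θ : Ginf) : proj (inner N : Set (ℤ × ℤ)) θ v = 0 := by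
  apply proj_of_notMem
  intro hv
  have hv' : v ∈ inner N := by simpa using hv
  unfold inner at hv'
  rw [Finset.mem_Icc, Prod.le_def, Prod.le_def] at hv'
  simp only at hv'
  omega

/-- the energy of a larger block differs by a constant if the spins off `inner N` vanish -/
theorem blockE_enlarge (N M : ℕ) (b : ℝ) (θ : Ginf) :
    blockE (N + M) b (proj (inner N : Set (ℤ × ℤ)) θ) =
      blockE N b (proj (inner N : Set (ℤ × ℤ)) θ) +
        2 * (b * (((N : ℝ) + M) ^ 2 - (N : ℝ) ^ 2)) := by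
  have z := fun (v : ℤ × ℤ) h => proj_inner_zero (N := N) (v := v) h θ
  have e1 : horiz (N + M) b cosT (proj (inner N : Set (ℤ × ℤ)) θ) =
      horiz N b cosT (proj (inner N : Set (ℤ × ℤ)) θ) +
        b * (((N : ℝ) + M) ^ 2 - (N : ℝ) ^ 2) := by
    unfold horiz
    apply sum_enlarge
    intro i j hij
    rw [z _ (by simp only; omega), z _ (by simp only; omega), z _ (by simp only; omega),
      z _ (by simp only; omega), sub_zero, cosT_zero]
    ring
  have e2 : vert (N + M) b cosT (proj (inner N : Set (ℤ × ℤ)) θ) =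
      vert N b cosT (proj (inner N : Set (ℤ × ℤ)) θ) +
        b * (((N : ℝ) + M) ^ 2 - (N : ℝ) ^ 2) := by
    unfold vert
    apply sum_enlarge
    intro i j hij
    rw [z _ (by simp only; omega), z _ (by simp only; omega), z _ (by simp only; omega),
      z _ (by simp only; omega), sub_zero, cosT_zero]
    ring
  unfold blockE
  rw [e1, e2]
  ring

theorem blockE_split {l : ℕ} (hl : 1 ≤ l) (n : ℕ) (b : ℝ) (ω : Ginf) :
    ∑ k ∈ cells n, ∑ e : BI l, b / 2 * cosT (ω (cor l k + bu e) - ω (cor l k + bv e)) =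
      blockE (l * n) b ω := by
  have h := l1_split' hl n 0 (fun _ => b / 2) cosT ω
  simp only [zero_add] at h
  rw [← h, sum_all]
  rfl

theorem proj_sub {S S' : Set (ℤ × ℤ)} (h : S ⊆ S') (θ : Ginf) : proj S' (proj S θ) = proj S θ := by
  funext v
  by_cases hv : v ∈ S'
  · rw [proj_of_mem hv]
  · rw [proj_of_notMem hv, proj_of_notMem fun hv' => hv (h hv')]

/-- block bound for charges in the wired block; in the cells of `E` nothing is averaged -/
theorem gridW_bound {l : ℕ} (hl : 1 ≤ l) (N n : ℕ) {b : ℝ} (hb : 0 ≤ b) (a : ℤ × ℤ → ℝ)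
    {k : ℕ} (m : Fin k → ℤ) (x : Fin k → ℤ × ℤ) (E : Set (ℤ × ℤ))
    (ha : ∀ w : ℤ × ℤ, w ∉ inner N → interp l a w = 0)
    (hE1 : ∀ κ, κ ∉ E → innerAt l κ ⊆ (inner N : Set (ℤ × ℤ)))
    (hE2 : ∀ κ, κ ∉ E → ∀ j, x j ∉ innerAt l κ) (F : ℤ × ℤ → ℝ)
    (hF1 : ∀ κ ∈ E, Real.exp (∑ e : BI l, b / 2 * (Real.cosh
      ((-(cp a κ / l)) * hh e + (-(cq a κ / l)) * vv e + (-(ck a κ / l)) * ww e) - 1)) ≤ F κ)
    (hF2 : ∀ κ, κ ∉ E → rho muInf (fun _ : BI l => b / 2) (chi0 l)
        (fun e => (-(cp a κ / l)) * hh e + (-(cq a κ / l)) * vv e + (-(ck a κ / l)) * ww e) ≤ F κ) :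
    |∫ θ, (H454.mchr m x).c (proj (inner N : Set (ℤ × ℤ)) θ) *
        Real.exp (blockE (l * n) b (proj (inner N : Set (ℤ × ℤ)) θ)) ∂muInf| ≤
      (Real.exp (-(∑ j, m j * interp l a (x j))) * ∏ κ ∈ cells n, F κ) *
      ∫ θ, Real.exp (blockE (l * n) b (proj (inner N : Set (ℤ × ℤ)) θ)) ∂muInf := by
  classical
  set Q : Ginf →+ Ginf := proj (inner N : Set (ℤ × ℤ)) with hQ
  have hQc : Continuous Q := proj_cont _
  have hQg : ∀ s : ℝ, Q (fun w => ((s * interp l a w : ℝ) : T)) =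
      fun w => ((s * interp l a w : ℝ) : T) := by
    intro s
    funext v
    by_cases hv : v ∈ inner N
    · rw [hQ, proj_of_mem (by simpa using hv)]
    · rw [hQ, proj_of_notMem (by simpa using hv), ha v hv, mul_zero]
      exact (AddCircle.coe_zero (p := 2 * Real.pi)).symm
  have hg : ∀ (u v : ℤ × ℤ) (s : ℝ),
      (grad u v).c (Q fun w => ((s * interp l a w : ℝ) : T)) =
      Real.cos (s * (interp l a u - interp l a v)) ∧
      (grad u v).s (Q fun w => ((s * interp l a w : ℝ) : T)) =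
      Real.sin (s * (interp l a u - interp l a v)) := by
    intro u v s
    rw [hQg]
    unfold grad
    simp only
    rw [← AddCircle.coe_sub, cosT_coe, sinT_coe, mul_sub]
    exact ⟨rfl, rfl⟩
  have hgm : ∀ s : ℝ, (H454.mchr m x).c (Q fun w => ((s * interp l a w : ℝ) : T)) =
      Real.cos (s * ∑ j, m j * interp l a (x j)) ∧
      (H454.mchr m x).s (Q fun w => ((s * interp l a w : ℝ) : T)) =
      Real.sin (s * ∑ j, m j * interp l a (x j)) := by
    intro s
    rw [hQg]
    have e : ∑ j, m j • (((s * interp l a (x j) : ℝ)) : T) =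
        ((s * ∑ j, m j * interp l a (x j) : ℝ) : T) := by
      rw [Finset.mul_sum]
      have h1 : ∀ j ∈ Finset.univ, m j • (((s * interp l a (x j) : ℝ)) : T) =
          ((s * (m j * interp l a (x j)) : ℝ) : T) := by
        intro j _
        rw [← AddCircle.coe_zsmul, zsmul_eq_mul]
        congr 1
        ring
      rw [Finset.sum_congr rfl h1]
      exact (map_sum (QuotientAddGroup.mk' (AddSubgroup.zmultiples (2 * Real.pi)))
        (fun j => s * (m j * interp l a (x j))) Finset.univ).symm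
    unfold H454.mchr
    simp only
    rw [e, cosT_coe, sinT_coe]
    exact ⟨rfl, rfl⟩
  set P : ℤ × ℤ → (Ginf →+ Ginf) := fun κ => if κ ∈ E then 0 else proj (innerAt l κ) with hP
  have hPE : ∀ κ, κ ∈ E → P κ = 0 := fun κ hκ => by simp [hP, hκ]
  have hPn : ∀ κ, κ ∉ E → P κ = proj (innerAt l κ) := fun κ hκ => by simp [hP, hκ]
  have hPc : ∀ κ, Continuous (P κ) := by
    intro κ
    by_cases h : κ ∈ E
    · rw [hPE κ h]; exact continuous_const
    · rw [hPn κ h]; exact proj_cont _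
  have hQE : ∀ κ, κ ∈ E → ∀ θ, Q (P κ θ) = 0 := fun κ hκ θ => by
    rw [hPE κ hκ, AddMonoidHom.zero_apply, map_zero]
  have hQn : ∀ κ, κ ∉ E → ∀ θ, Q (P κ θ) = proj (innerAt l κ) θ := fun κ hκ θ => by
    rw [hPn κ hκ]
    exact proj_sub (hE1 κ hκ) θ
  have h := block_bound muInf (K := ↥(cells n)) (κ := BI l) pi_div2 (fun _ => b / 2)
    (fun _ => by positivity) (fun k e => (chiAt l k e).comp Q hQc) ((H454.mchr m x).comp Q hQc)
    (fun k => P k) (fun k => hPc k)
    (by
      intro j k hjk e θ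
      have hne : (j : ℤ × ℤ) ≠ (k : ℤ × ℤ) := fun h => hjk (Subtype.ext h)
      show (chiAt l k e).c (Q (P j θ)) = 1 ∧ (chiAt l k e).s (Q (P j θ)) = 0
      by_cases hj : (j : ℤ × ℤ) ∈ E
      · rw [hQE _ hj]
        exact (chiAt l k e).zero_vals
      · rw [hQn _ hj]
        obtain ⟨a1, a2, a3, a4⟩ := bu_range e
        obtain ⟨b1, b2, b3, b4⟩ := bv_range e
        unfold chiAt grad
        simp only
        rw [proj_of_notMem (notMem_innerAt hne a1 a2 a3 a4),
          proj_of_notMem (notMem_innerAt hne b1 b2 b3 b4), sub_zero, cosT_zero, sinT_zero]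
        exact ⟨rfl, rfl⟩)
    (by
      intro k θ
      show (H454.mchr m x).c (Q (P k θ)) = 1 ∧ (H454.mchr m x).s (Q (P k θ)) = 0
      by_cases hk : (k : ℤ × ℤ) ∈ E
      · rw [hQE _ hk]
        exact (H454.mchr m x).zero_vals
      · rw [hQn _ hk]
        unfold H454.mchr
        simp only
        have h1 : ∑ j, m j • proj (innerAt l k) θ (x j) = 0 :=
          Finset.sum_eq_zero fun j _ => by rw [proj_of_notMem (hE2 _ hk j), zsmul_zero]
        rw [h1, cosT_zero, sinT_zero]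
        exact ⟨rfl, rfl⟩)
    (fun k e => interp l a (cor l k + bu e) - interp l a (cor l k + bv e))
    (∑ j, m j * interp l a (x j))
    (fun s => fun w => ((s * interp l a w : ℝ) : T))
    (fun k e s => hg _ _ s)
    (fun s => hgm s)
  have e1 : ∀ θ : Ginf, ∑ k : ↥(cells n), ∑ e : BI l,
      b / 2 * ((chiAt l k e).comp Q hQc).c θ = blockE (l * n) b (Q θ) := by
    intro θ
    rw [← blockE_split hl n b (Q θ)]
    exact Finset.sum_coe_sort (cells n)
      (fun k => ∑ e : BI l, b / 2 * cosT ((Q θ) (cor l k + bu e) - (Q θ) (cor l k + bv e)))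
  simp_rw [e1] at h
  refine h.trans ?_
  refine mul_le_mul_of_nonneg_right ?_ (integral_nonneg fun θ => (Real.exp_pos _).le)
  refine mul_le_mul_of_nonneg_left ?_ (Real.exp_pos _).le
  rw [← Finset.prod_coe_sort (cells n) F]
  refine Finset.prod_le_prod (fun k _ => div_nonneg (norm_nonneg _) (norm_nonneg _)) fun k _ => ?_
  by_cases hk : (k : ℤ × ℤ) ∈ E
  · rw [H454.rho_trivial _ _ _ _ _ (fun x => by rw [hPE _ hk]; rfl)]
    simp_rw [interp_bond hl]
    exact hF1 _ hk
  · have h1 : (fun e => ((chiAt l k e).comp Q hQc).comp (P k) (hPc k)) =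
        fun e => (chiAt l k e).comp (proj (innerAt l k)) (proj_cont _) := by
      funext e
      unfold Chr.comp
      simp only [hQn _ hk]
    rw [h1, rho_translate]
    simp_rw [interp_bond hl]
    exact hF2 _ hk

/-- the charge two expectation in the wired block from the bound in a larger block -/
theorem D2_le {l : ℕ} (hl : 1 ≤ l) (N : ℕ) (b : ℝ) (u v : ℤ × ℤ) {B : ℝ}
    (hB : |∫ θ, (H454.mchr ![1, 1] ![u, v]).c (proj (inner N : Set (ℤ × ℤ)) θ) *
        Real.exp (blockE (l * N) b (proj (inner N : Set (ℤ × ℤ)) θ)) ∂muInf| ≤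
      B * ∫ θ, Real.exp (blockE (l * N) b (proj (inner N : Set (ℤ × ℤ)) θ)) ∂muInf) :
    expect (blockEnergy N b) (fun θ => cosT (ext θ u + ext θ v)) ≤ B := by
  have hF : Continuous fun θ : Ginf => cosT (θ u + θ v) :=
    cont_cos.comp ((continuous_apply u).add (continuous_apply v))
  rw [← gibbs_chi0 N b hF]
  unfold gibbs
  simp only [energy_chi0]
  have hpos : 0 < ∫ θ, Real.exp (blockE N b (proj (inner N : Set (ℤ × ℤ)) θ)) ∂muInf :=
    H454.exp_pos_int ((blockE_cont N b).comp (proj_cont _))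
  rw [div_le_iff₀ hpos]
  obtain ⟨M, hM⟩ : ∃ M, l * N = N + M := by
    obtain ⟨M, hM⟩ := Nat.exists_eq_add_of_le (Nat.le_mul_of_pos_left N hl)
    exact ⟨M, hM⟩
  rw [hM] at hB
  set c := 2 * (b * (((N : ℝ) + M) ^ 2 - (N : ℝ) ^ 2)) with hc
  have e1 : ∀ θ : Ginf, Real.exp (blockE (N + M) b (proj (inner N : Set (ℤ × ℤ)) θ)) =
      Real.exp (blockE N b (proj (inner N : Set (ℤ × ℤ)) θ)) * Real.exp c := by
    intro θ
    rw [blockE_enlarge, Real.exp_add]
  have e2 : ∀ θ : Ginf, (H454.mchr ![1, 1] ![u, v]).c (proj (inner N : Set (ℤ × ℤ)) θ) =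
      cosT (proj (inner N : Set (ℤ × ℤ)) θ u + proj (inner N : Set (ℤ × ℤ)) θ v) := by
    intro θ
    unfold H454.mchr
    simp only [Fin.sum_univ_two, Matrix.cons_val_zero, Matrix.cons_val_one, one_smul]
  simp_rw [e1, e2, ← mul_assoc] at hB
  rw [integral_mul_const, integral_mul_const, abs_mul, abs_of_pos (Real.exp_pos c),
    ← mul_assoc] at hB
  have h1 := le_of_mul_le_mul_right hB (Real.exp_pos c)
  exact (le_abs_self _).trans h1

theorem psi_near5 {M : ℝ} (hM : 9 ≤ M) {n : ℕ} {w : ℤ × ℤ}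
    (hw : (w.1 : ℝ) ^ 2 + (w.2 : ℝ) ^ 2 ≤ 5) :
    Real.log n - Real.log (M ^ 2 + 5) / 2 ≤ psi M n w := by
  have hM0 : 0 < M := by linarith only [hM]
  rcases Nat.eq_zero_or_pos n with hn | hn
  · subst hn
    have h0 := H454.psi_nn M 0 w
    have h1 : 0 ≤ Real.log (M ^ 2 + 5) := Real.log_nonneg (by nlinarith only [hM])
    simp only [Nat.cast_zero, Real.log_zero]
    linarith only [h0, h1]
  · unfold psi phi qq
    refine le_trans ?_ (le_max_right _ _)
    have hn0 : (0 : ℝ) < n := by exact_mod_cast hn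
    have h1 : Real.log ((n : ℝ) ^ 2) ≤ Real.log (M ^ 2 + (n : ℝ) ^ 2) := by
      apply Real.log_le_log (by positivity)
      nlinarith only []
    rw [Real.log_pow] at h1
    have h2 : Real.log (M ^ 2 + (w.1 : ℝ) ^ 2 + (w.2 : ℝ) ^ 2) ≤ Real.log (M ^ 2 + 5) := by
      apply Real.log_le_log (by positivity)
      linarith only [hw]
    push_cast at h1
    linarith only [h1, h2]

theorem near_of_blk {l : ℕ} (hl : 1 ≤ l) {p q : ℤ} {n : ℕ} (h : |p / l - q / l| ≤ n) :
    |p - q| ≤ l * (n + 1) := by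
  have hlz : (0 : ℤ) < l := by exact_mod_cast hl
  have h1 := Int.mul_ediv_add_emod p l
  have h2 := Int.mul_ediv_add_emod q l
  have h3 := Int.emod_lt_of_pos p hlz
  have h4 := Int.emod_lt_of_pos q hlz
  have h5 := Int.emod_nonneg p hlz.ne'
  have h6 := Int.emod_nonneg q hlz.ne'
  rw [abs_le] at h ⊢
  have h7 := mul_le_mul_of_nonneg_left h.1 hlz.le
  have h8 := mul_le_mul_of_nonneg_left h.2 hlz.le
  constructor <;> linarith only [h1, h2, h3, h4, h5, h6, h7, h8]

theorem ediv_step {l : ℕ} (hl : 1 ≤ l) (p : ℤ) : (p + 1) / l = p / l ∨ (p + 1) / l = p / l + 1 := by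
  have hlz : (0 : ℤ) < l := by exact_mod_cast hl
  have h1 : p / l ≤ (p + 1) / l := Int.ediv_le_ediv hlz (by omega)
  have h2 : (p + 1) / l ≤ (p + l) / l := Int.ediv_le_ediv hlz (by omega)
  have h3 : (p + (l : ℤ)) / l = p / l + 1 := Int.add_ediv_of_dvd_right (dvd_refl _) |>.trans (by
    rw [Int.ediv_self hlz.ne'])
  omega

theorem chargeW_aux {l : ℕ} (hl : 1 ≤ l) {b : ℝ} (hb : 0 ≤ b) {U : ℝ} (hU0 : 0 < U)
    (hU : stiff l b ≤ U) :
    ∃ K : ℝ, 0 ≤ K ∧ ∀ (N : ℕ) (e : BI N) (d : ℕ), 1 ≤ d →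
      (∀ w : ℤ × ℤ, |w.1 - (bu e).1| ≤ d → |w.2 - (bu e).2| ≤ d → w ∈ inner N) →
      expect (blockEnergy N b) (fun θ => cosT (ext θ (bu e) + ext θ (bv e))) ≤
        K * (d : ℝ) ^ (-(1 / (Real.pi * U))) := by
  classical
  have hpi := Real.pi_pos
  have hl0 : (0 : ℝ) < l := by exact_mod_cast hl
  have hlz : (0 : ℤ) < l := by exact_mod_cast hl
  obtain ⟨C, δ, hC, hδ, hrho⟩ := rho_block hl hb hU
  set τ : ℝ := 1 / (Real.pi * U) with hτ
  have hτ0 : 0 < τ := by positivity
  have eτ : Real.pi * U * τ ^ 2 = τ := by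
    rw [hτ]
    field_simp
  set M := 9 + 16 * τ / δ with hMdef
  have hM : 9 ≤ M := by
    have : 0 ≤ 16 * τ / δ := by positivity
    linarith
  have hM0 : 0 < M := by linarith only [hM]
  have hMδ : |τ| * (16 / M) ≤ δ := by
    rw [abs_of_pos hτ0, mul_div_assoc', div_le_iff₀ hM0, hMdef]
    have h3 : δ * (9 + 16 * τ / δ) = 9 * δ + 16 * τ := by field_simp
    rw [h3]
    linarith only [hδ]
  set m0 := Real.log (M ^ 2 + 5) / 2 with hm0
  set C2 : ℝ := ∑ _e : BI l, b / 2 * (Real.cosh δ - 1) with hC2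
  have hC20 : 0 ≤ C2 := Finset.sum_nonneg fun _ _ =>
    mul_nonneg (by positivity) (sub_nonneg.2 (Real.one_le_cosh δ))
  set c0 := 2 * τ * m0 + U / 2 * τ ^ 2 * 4600 + C * (τ ^ 2 + τ ^ 4) * 210000 + 2 * C2 with hc0
  refine ⟨Real.exp c0 * (4 * (l : ℝ)) ^ τ, by positivity, ?_⟩
  intro N e d hd1 hbox
  set u := bu e with hu
  set v := bv e with hv
  set κ0 := H454.blk l u with hκ0
  set κ1 := H454.blk l v with hκ1
  set n : ℕ := d / l - 2 with hn
  have hnd : 1 ≤ n → (l : ℤ) * (n + 1) ≤ d := by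
    intro h
    have h1 : n + 1 ≤ d / l := by omega
    have h2 : l * (n + 1) ≤ d := (Nat.mul_le_mul_left _ h1).trans (Nat.mul_div_le d l)
    exact_mod_cast h2
  have hdn : (d : ℝ) ≤ 4 * l * max (n : ℝ) 1 := by
    have h1 : d / l ≤ n + 2 := by omega
    have h2 : d < l * (d / l + 1) := Nat.lt_mul_div_succ _ hl
    have h3 : l * (d / l + 1) ≤ l * (n + 3) := Nat.mul_le_mul_left _ (by omega)
    have h4 : (d : ℝ) ≤ l * (n + 3) := by exact_mod_cast (h2.le.trans h3)
    have h5 : ((n : ℝ) + 3) ≤ 4 * max (n : ℝ) 1 := by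
      have := le_max_left (n : ℝ) 1
      have := le_max_right (n : ℝ) 1
      linarith
    have h6 := mul_le_mul_of_nonneg_left h5 hl0.le
    linarith only [h4, h6]
  -- sites in the cells near the centre are in the block
  have hnear : ∀ w : ℤ × ℤ, 1 ≤ n → |w.1 / l - κ0.1| ≤ n → |w.2 / l - κ0.2| ≤ n →
      w ∈ inner N := by
    intro w h1 h2 h3
    exact hbox w ((near_of_blk hl h2).trans (hnd h1)) ((near_of_blk hl h3).trans (hnd h1))
  set a : ℤ × ℤ → ℝ := fun z => ∑ _j : Fin 1, τ * psi M n (z - κ0) with ha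
  have ha0 : ∀ z, a z = τ * psi M n (z - κ0) := by
    intro z
    simp [ha]
  have hmc := fun z => H454.multi_centre hM (fun _ : Fin 1 => τ) (fun _ => n) (fun _ => κ0)
    (fun z i j hij => absurd (Subsingleton.elim i j) hij) hδ.le (fun _ => hMδ) ha z
  simp only [Finset.univ_unique, Finset.sum_singleton] at hmc
  have hcell : ∀ z, ¬ (1 ≤ n ∧ z - κ0 ∈ sq n) → cp a z = 0 ∧ cq a z = 0 ∧ ck a z = 0 := by
    intro z hz
    obtain ⟨h1, h2, h3⟩ := H454.sum_lin (fun _ : Fin 1 => τ) (fun _ => psi M n) (fun _ => κ0) z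
    obtain ⟨g1, g2, g3⟩ := H454.inactive hM hz
    rw [← ha] at h1 h2 h3
    rw [h1, h2, h3]
    simp [g1, g2, g3]
  have hfar : ∀ z : ℤ × ℤ, (n : ℤ) ≤ max |(z - κ0).1| |(z - κ0).2| → a z = 0 := by
    intro z hz
    rw [ha0, H177.psi_far hM hz, mul_zero]
  have hsupp : ∀ w : ℤ × ℤ, w ∉ inner N → interp l a w = 0 := by
    intro w hw
    have key : ∀ c : ℤ × ℤ, 0 ≤ c.1 → c.1 ≤ 1 → 0 ≤ c.2 → c.2 ≤ 1 →
        a ((w.1 / l, w.2 / l) + c) = 0 := by
      intro c h1 h2 h3 h4
      apply hfar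
      by_contra hlt
      rw [not_le, max_lt_iff] at hlt
      obtain ⟨h5, h6⟩ := hlt
      simp only [Prod.fst_sub, Prod.snd_sub, Prod.fst_add, Prod.snd_add] at h5 h6
      have h7 : 1 ≤ n := by
        have := abs_nonneg (w.1 / l + c.1 - κ0.1)
        omega
      apply hw
      apply hnear w h7
      · rw [abs_lt] at h5
        rw [abs_le]
        omega
      · rw [abs_lt] at h6
        rw [abs_le]
        omega
    unfold interp bil
    have k0 := key 0 (by simp) (by simp) (by simp) (by simp)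
    rw [add_zero] at k0
    have k1 := key (1, 0) (by simp) (by simp) (by simp) (by simp)
    have k2 := key (0, 1) (by simp) (by simp) (by simp) (by simp)
    have k3 := key ((1, 0) + (0, 1)) (by simp) (by simp) (by simp) (by simp)
    rw [← add_assoc] at k3
    rw [k0, k1, k2, k3]
    ring
  have hval : ∀ w : ℤ × ℤ, (w.1 : ℝ) ^ 2 + (w.2 : ℝ) ^ 2 ≤ 5 →
      τ * (Real.log n - m0) ≤ a (κ0 + w) := by
    intro w hw
    rw [ha0, add_sub_cancel_left]
    exact mul_le_mul_of_nonneg_left (psi_near5 hM hw) hτ0.le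
  have hint : ∀ (x ε : ℤ × ℤ), H454.blk l x = κ0 + ε → (ε = 0 ∨ ε = (1, 0) ∨ ε = (0, 1)) →
      τ * (Real.log n - m0) ≤ interp l a x := by
    intro x ε hx hε
    have s0 := Int.emod_nonneg x.1 hlz.ne'
    have s1 := Int.emod_lt_of_pos x.1 hlz
    have t0 := Int.emod_nonneg x.2 hlz.ne'
    have t1 := Int.emod_lt_of_pos x.2 hlz
    have s0' : 0 ≤ ((x.1 % l : ℤ) : ℝ) / l := div_nonneg (by exact_mod_cast s0) hl0.le
    have s1' : ((x.1 % l : ℤ) : ℝ) / l ≤ 1 := by
      rw [div_le_one hl0]; exact_mod_cast s1.le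
    have t0' : 0 ≤ ((x.2 % l : ℤ) : ℝ) / l := div_nonneg (by exact_mod_cast t0) hl0.le
    have t1' : ((x.2 % l : ℤ) : ℝ) / l ≤ 1 := by
      rw [div_le_one hl0]; exact_mod_cast t1.le
    have hk : (x.1 / (l : ℤ), x.2 / (l : ℤ)) = κ0 + ε := hx
    unfold interp
    rw [hk]
    unfold bil
    have w1 := hval ε (by rcases hε with h | h | h <;> rw [h] <;> norm_num)
    have w2 := hval (ε + (1, 0)) (by rcases hε with h | h | h <;> rw [h] <;> norm_num)
    have w3 := hval (ε + (0, 1)) (by rcases hε with h | h | h <;> rw [h] <;> norm_num)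
    have w4 := hval (ε + (1, 0) + (0, 1)) (by rcases hε with h | h | h <;> rw [h] <;> norm_num)
    rw [← add_assoc] at w2 w3
    have e4 : κ0 + (ε + (1, 0) + (0, 1)) = κ0 + ε + (1, 0) + (0, 1) := by
      rw [add_assoc ε, add_assoc (κ0 + ε), add_assoc κ0]
    rw [e4] at w4
    exact H454.bil_ge s0' s1' t0' t1' w1 w2 w3 w4
  have hiu : τ * (Real.log n - m0) ≤ interp l a u := hint u 0 (by rw [add_zero]) (Or.inl rfl)
  have hiv : τ * (Real.log n - m0) ≤ interp l a v := by
    have hvv : v = u + (if e.2.1 then (0, 1) else (1, 0)) := rfl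
    by_cases h : e.2.1 = true
    · rw [if_pos h] at hvv
      rcases ediv_step hl u.2 with h1 | h1
      · refine hint v 0 ?_ (Or.inl rfl)
        rw [hvv, hκ0, add_zero]
        unfold H454.blk
        simp only [Prod.fst_add, Prod.snd_add, add_zero, h1]
      · refine hint v (0, 1) ?_ (Or.inr (Or.inr rfl))
        rw [hvv, hκ0]
        unfold H454.blk
        simp only [Prod.fst_add, Prod.snd_add, add_zero, h1, Prod.mk_add_mk]
    · rw [if_neg h] at hvv
      rcases ediv_step hl u.1 with h1 | h1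
      · refine hint v 0 ?_ (Or.inl rfl)
        rw [hvv, hκ0, add_zero]
        unfold H454.blk
        simp only [Prod.fst_add, Prod.snd_add, add_zero, h1]
      · refine hint v (1, 0) ?_ (Or.inr (Or.inl rfl))
        rw [hvv, hκ0]
        unfold H454.blk
        simp only [Prod.fst_add, Prod.snd_add, add_zero, h1, Prod.mk_add_mk]
  -- exceptional cells
  set E0 : Finset (ℤ × ℤ) := {κ0, κ1} with hE0
  have hEc : E0.card ≤ 2 := Finset.card_le_two
  set E : Set (ℤ × ℤ) := {κ | κ ∈ E0 ∨ ¬ innerAt l κ ⊆ (inner N : Set (ℤ × ℤ))} with hE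
  have hnE : ∀ κ, κ ∉ E → κ ∉ E0 ∧ innerAt l κ ⊆ (inner N : Set (ℤ × ℤ)) := by
    intro κ hκ
    rw [hE, Set.mem_ofPred_eq, not_or, not_not] at hκ
    exact hκ
  have hsub : ∀ κ : ℤ × ℤ, 1 ≤ n → κ - κ0 ∈ sq n → innerAt l κ ⊆ (inner N : Set (ℤ × ℤ)) := by
    intro κ h1 h2 w hw
    rw [mem_sq_iff] at h2
    rw [mem_innerAt] at hw
    obtain ⟨c1, c2, c3, c4⟩ := hw
    have d1 : w.1 / l = κ.1 := by
      rw [Int.ediv_eq_iff_of_pos hlz]
      constructor <;> linarith only [c1, c2]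
    have d2 : w.2 / l = κ.2 := by
      rw [Int.ediv_eq_iff_of_pos hlz]
      constructor <;> linarith only [c3, c4]
    have hw' := hnear w h1 (by rw [d1]; exact h2.1) (by rw [d2]; exact h2.2)
    simpa using hw'
  set F : ℤ × ℤ → ℝ := fun z => Real.exp (U / 2 * (cp a z ^ 2 + cq a z ^ 2) +
    C * (|ck a z| * cY a z + cY a z ^ 4) + if z ∈ E0 then C2 else 0) with hF
  have hnn : ∀ z, 0 ≤ U / 2 * (cp a z ^ 2 + cq a z ^ 2) +
      C * (|ck a z| * cY a z + cY a z ^ 4) := by
    intro z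
    have := H454.cY_nn a z
    positivity
  have hbound := gridW_bound hl N N hb a ![1, 1] ![u, v] E hsupp (fun κ hκ => (hnE κ hκ).2)
    (by
      intro κ hκ j
      have h1 := (hnE κ hκ).1
      rw [hE0, Finset.mem_insert, Finset.mem_singleton, not_or] at h1
      refine Fin.cases ?_ (fun i => ?_) j
      · exact H454.notMem_of_ne hl h1.1
      · have : i = 0 := Subsingleton.elim _ _
        subst this
        exact H454.notMem_of_ne hl h1.2)
    F
    (by
      intro z hz
      by_cases hz0 : z ∈ E0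
      · simp only [hF, hz0, if_true]
        apply Real.exp_le_exp.2
        refine le_trans ?_ (le_add_of_nonneg_left (hnn z))
        refine Finset.sum_le_sum fun e' _ => ?_
        refine mul_le_mul_of_nonneg_left (sub_le_sub_right ?_ _) (by positivity)
        rw [Real.cosh_le_cosh, abs_of_pos hδ]
        refine le_trans ?_ (hmc z).2.1
        have g : ∀ u v : ℝ, |v| ≤ 1 → |(-(u / l)) * v| ≤ |u| := by
          intro u v hv
          rw [abs_mul, abs_neg, abs_div, abs_of_pos hl0]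
          have g1 : |u| / l ≤ |u| := div_le_self (abs_nonneg _) (by exact_mod_cast hl)
          calc |u| / l * |v| ≤ |u| / l * 1 :=
                mul_le_mul_of_nonneg_left hv (div_nonneg (abs_nonneg _) hl0.le)
            _ ≤ |u| := by rw [mul_one]; exact g1
        unfold cY
        refine (abs_add_le _ _).trans (add_le_add ((abs_add_le _ _).trans (add_le_add ?_ ?_)) ?_)
        · exact g _ _ (hh_abs e')
        · exact g _ _ (vv_abs e')
        · exact g _ _ (ww_abs hl e')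
      · have hz1 : ¬ innerAt l z ⊆ (inner N : Set (ℤ × ℤ)) := by
          rcases hz with h | h
          · exact absurd h hz0
          · exact h
        obtain ⟨g1, g2, g3⟩ := hcell z fun h => hz1 (hsub z h.1 h.2)
        rw [g1, g2, g3]
        have h1 : ∑ e : BI l, b / 2 * (Real.cosh ((-((0 : ℝ) / l)) * hh e +
            (-((0 : ℝ) / l)) * vv e + (-((0 : ℝ) / l)) * ww e) - 1) = 0 := by
          refine Finset.sum_eq_zero fun e _ => ?_
          simp
        rw [h1]
        simp only [hF, hz0, if_false, add_zero]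
        exact Real.exp_le_exp.2 (hnn z))
    (by
      intro z hz
      have hz0 := (hnE z hz).1
      simp only [hF, hz0, if_false, add_zero]
      exact hrho a z (hmc z).2.1)
  refine (D2_le hl N b u v hbound).trans ?_
  set S := cells N with hS
  have hsumE : ∑ z ∈ S, (if z ∈ E0 then C2 else 0) ≤ 2 * C2 := by
    rw [← Finset.sum_filter, Finset.sum_const, nsmul_eq_mul]
    refine mul_le_mul_of_nonneg_right ?_ hC20
    have h1 : (S.filter (· ∈ E0)).card ≤ E0.card :=
      Finset.card_le_card fun z hz => (Finset.mem_filter.1 hz).2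
    exact_mod_cast h1.trans hEc
  have hsum : ∑ z ∈ S, (U / 2 * (cp a z ^ 2 + cq a z ^ 2) +
      C * (|ck a z| * cY a z + cY a z ^ 4)) ≤
      U / 2 * τ ^ 2 * (2 * Real.pi * Real.log n + 4600) + C * (τ ^ 2 + τ ^ 4) * 210000 := by
    have h1 : ∀ z ∈ S, U / 2 * (cp a z ^ 2 + cq a z ^ 2) +
        C * (|ck a z| * cY a z + cY a z ^ 4) ≤
        U / 2 * τ ^ 2 * (cp (psi M n) (z - κ0) ^ 2 +
          cq (psi M n) (z - κ0) ^ 2) + C * (τ ^ 2 + τ ^ 4) *
          (|ck (psi M n) (z - κ0)| * cY (psi M n) (z - κ0) +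
            cY (psi M n) (z - κ0) ^ 4) := by
      intro z _
      obtain ⟨g1, _, g3⟩ := hmc z
      have g4 := mul_le_mul_of_nonneg_left g1 (show 0 ≤ U / 2 by positivity)
      have g5 := mul_le_mul_of_nonneg_left g3 hC.le
      linarith only [g4, g5]
    refine (Finset.sum_le_sum h1).trans ?_
    rw [Finset.sum_add_distrib, ← Finset.mul_sum, ← Finset.mul_sum]
    refine add_le_add ?_ ?_
    · exact mul_le_mul_of_nonneg_left (H454.sumP hM n S κ0) (by positivity)
    · exact mul_le_mul_of_nonneg_left (H454.sumE hM n S κ0) (by positivity)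
  have htot : Real.exp (-(∑ j, ((![1, 1] : Fin 2 → ℤ) j : ℝ) * interp l a (![u, v] j))) *
      ∏ z ∈ S, F z ≤ Real.exp c0 * Real.exp (-(τ * Real.log n)) := by
    simp only [hF]
    rw [← Real.exp_sum, ← Real.exp_add, ← Real.exp_add]
    apply Real.exp_le_exp.2
    rw [Finset.sum_add_distrib (s := S)]
    have g0 : ∑ j, ((![1, 1] : Fin 2 → ℤ) j : ℝ) * interp l a (![u, v] j) =
        interp l a u + interp l a v := by
      simp [Fin.sum_univ_two]
    rw [g0]
    have g2 : U / 2 * τ ^ 2 * (2 * Real.pi * Real.log n + 4600) =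
        τ * Real.log n + U / 2 * τ ^ 2 * 4600 := by
      linear_combination Real.log n * eτ
    rw [g2] at hsum
    linarith only [hiu, hiv, hsum, hsumE, hc0]
  refine htot.trans ?_
  rw [mul_assoc]
  refine mul_le_mul_of_nonneg_left ?_ (Real.exp_pos _).le
  exact H454.one_charge hτ0.le (by positivity) hd1 hdn

theorem cosT_le_1 (x : T) : cosT x ≤ 1 := by
  have h1 : cosT x ^ 2 + sinT x ^ 2 = 1 := Real.Angle.cos_sq_add_sin_sq x
  nlinarith only [h1, sq_nonneg (sinT x), sq_nonneg (cosT x - 1)]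

theorem expect_cos_le_one (N : ℕ) (b : ℝ) (u v : ℤ × ℤ) :
    expect (blockEnergy N b) (fun θ => cosT (ext θ u + ext θ v)) ≤ 1 := by
  have hF : Continuous fun θ : Ginf => cosT (θ u + θ v) :=
    cont_cos.comp ((continuous_apply u).add (continuous_apply v))
  rw [← gibbs_chi0 N b hF]
  have h1 := gibbs_mono muInf (fun _ : BI N => b / 2) (chi0 N)
    (hF.comp (proj_cont (inner N : Set (ℤ × ℤ)))) continuous_const
    (g := fun _ => (1 : ℝ)) (fun θ => cosT_le_1 _)
  rwa [gibbs_const] at h1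

/-- (R3) decay of the charge two expectation of a bond -/
theorem r3 : ∀ (b κ : ℝ), 0 < b → 0 ≤ κ → κ * (4 * Real.pi * helicity b) < 1 →
    ∃ K : ℝ, 0 ≤ K ∧ ∀ (N : ℕ) (e : BI N) (d : ℕ), 1 ≤ d →
      (∀ w : ℤ × ℤ, |w.1 - (bu e).1| ≤ d → |w.2 - (bu e).2| ≤ d → w ∈ inner N) →
      expect (blockEnergy N b) (fun θ => cosT (ext θ (bu e) + ext θ (bv e))) ≤
        K * (d : ℝ) ^ (-(4 * κ)) := by
  intro b κ hb hκ hlt
  rcases hκ.eq_or_lt with h0 | h0
  · refine ⟨1, zero_le_one, fun N e d _ _ => ?_⟩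
    rw [← h0]
    simp only [mul_zero, neg_zero, Real.rpow_zero, mul_one]
    exact expect_cos_le_one N b _ _
  · have hpi := Real.pi_pos
    set U : ℝ := 1 / (4 * Real.pi * κ) with hU
    have hU0 : 0 < U := by positivity
    have h1 : helicity b < U := by
      rw [hU, lt_div_iff₀ (by positivity)]
      linarith
    obtain ⟨l, hl⟩ := exists_lt_of_ciInf_lt (f := fun l : ℕ => stiff (l + 1) b) h1
    obtain ⟨K, hK, h⟩ := chargeW_aux (l := l + 1) (Nat.le_add_left 1 l) hb.le hU0 hl.le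
    refine ⟨K, hK, fun N e d hd hbox => ?_⟩
    have e1 : 1 / (Real.pi * U) = 4 * κ := by
      rw [hU]
      field_simp
    rw [e1] at h
    exact h N e d hd hbox

end Vale.Agent.P159.H670
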