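import Vale.Agent.P159.H292.R7

/-!
Growth of the correlations with the inverse temperature, in any finite system: the derivative of
the logarithm of a correlation is bounded below by the currents.
-/

open MeasureTheory Filter Topology
open scoped BigOperators

set_option linter.unusedSectionVars false

namespace Vale.Agent.P159.H670

open Vale.Agent.P159

/-- derivative of the integral against an exponential -/
theorem hasDerivAt_int {X : Type*} [TopologicalSpace X] [CompactSpace X] [MeasurableSpace X]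
    [OpensMeasurableSpace X] [SecondCountableTopology X] (μ : Measure X) [IsProbabilityMeasure μ]
    {f h : X → ℝ} (hf : Continuous f) (hh : Continuous h) (b : ℝ) :
    HasDerivAt (fun s : ℝ => ∫ x, f x * Real.exp (s * h x) ∂μ)
      (∫ x, f x * (h x * Real.exp (b * h x)) ∂μ) b := by
  obtain ⟨M, hM0, hM⟩ := exists_bound hh
  obtain ⟨L, hL0, hL⟩ := exists_bound hf
  refine (hasDerivAt_integral_of_dominated_loc_of_deriv_le
    (F := fun s x => f x * Real.exp (s * h x)) (F' := fun s x => f x * (h x * Real.exp (s * h x)))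
    (bound := fun _ => L * (M * Real.exp ((|b| + 1) * M))) (x₀ := b) (s := Metric.ball b 1)
    (Metric.ball_mem_nhds b one_pos) ?_ ?_ ?_ ?_ ?_ ?_).2
  · exact Eventually.of_forall fun s =>
      (hf.mul (Real.continuous_exp.comp (continuous_const.mul hh))).aestronglyMeasurable
  · exact cint (hf.mul (Real.continuous_exp.comp (continuous_const.mul hh)))
  · exact (hf.mul (hh.mul
      (Real.continuous_exp.comp (continuous_const.mul hh)))).aestronglyMeasurable
  · refine Eventually.of_forall fun x s hs => ?_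
    have h1 : ‖h x‖ ≤ M := hM x
    have h0 : ‖f x‖ ≤ L := hL x
    rw [norm_mul, norm_mul, Real.norm_eq_abs (Real.exp _), abs_of_pos (Real.exp_pos _)]
    refine mul_le_mul h0 (mul_le_mul h1 ?_ (Real.exp_pos _).le hM0) (by positivity) hL0
    rw [Real.exp_le_exp]
    have h2 : |s| ≤ |b| + 1 := by
      have h3 : |s - b| < 1 := by rwa [Metric.mem_ball, Real.dist_eq] at hs
      have h4 : |s| ≤ |s - b| + |b| := by
        have := abs_add_le (s - b) b
        rwa [sub_add_cancel] at this
      linarith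
    calc s * h x ≤ |s * h x| := le_abs_self _
      _ = |s| * |h x| := abs_mul _ _
      _ ≤ (|b| + 1) * M := mul_le_mul h2 h1 (abs_nonneg _) (by positivity)
  · exact integrable_const _
  · refine Eventually.of_forall fun x s _ => ?_
    have h1 : HasDerivAt (fun s : ℝ => s * h x) (h x) s := by
      simpa using (hasDerivAt_id s).mul_const (h x)
    have h2 := (h1.exp).const_mul (f x)
    rwa [mul_comm (Real.exp _) (h x)] at h2

section Growth

variable {G : Type*} [AddCommGroup G] [TopologicalSpace G] [IsTopologicalAddGroup G]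
  [CompactSpace G] [SecondCountableTopology G] [MeasurableSpace G] [BorelSpace G]
  (μ : Measure G) [μ.IsAddHaarMeasure] [IsProbabilityMeasure μ]
  {κ : Type*} [Fintype κ]

/-- covariance of the energy of a bond with the cosine of a character is nonnegative -/
theorem cov_nonneg (J : κ → ℝ) (χ : κ → Chr G) (h2 : ∀ g : G, ∃ h : G, h + h = g)
    (hJ : ∀ k, 0 ≤ J k) (e : κ) (A : Chr G) :
    0 ≤ gibbs μ J χ (fun x => (χ e).c x * A.c x) - gibbs μ J χ (χ e).c * gibbs μ J χ A.c := by
  have hss : Continuous fun x => (χ e).s x * A.s x := (χ e).cont_s.mul A.cont_s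
  have b1 := H292.four μ J χ h2 (f := (χ e).c) (g := A.c) (P := fun x => (χ e).s x * A.s x)
    (Q := fun x => (χ e).s x * A.s x) (χ e).cont_c A.cont_c hss hss (-1) (by
      intro x y
      rw [sub_eq_add_neg x y]
      simp only [(χ e).c_add, (χ e).c_neg, (χ e).s_neg, A.c_add, A.c_neg, A.s_neg]
      ring)
  have h3 := H292.kd_nonneg μ J χ hJ hss
  have h4 : 0 < (∫ x, Real.exp (∑ e, J e * (χ e).c x) ∂μ) ^ 2 :=
    pow_pos (weight_pos μ J χ) 2
  have h5 : 0 ≤ (gibbs μ J χ (fun x => (χ e).c x * A.c x) +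
      -1 * (gibbs μ J χ (χ e).c * gibbs μ J χ A.c)) := by
    by_contra hneg
    rw [not_le] at hneg
    have := mul_neg_of_neg_of_pos hneg h4
    linarith
  linarith

/-- the covariance is bounded below by the current -/
theorem cov_ge (J : κ → ℝ) (χ : κ → Chr G) (h2 : ∀ g : G, ∃ h : G, h + h = g)
    (hJ : ∀ k, 0 ≤ J k) (e : κ) (A : Chr G) (hpos : 0 < gibbs μ J χ A.c) :
    (gibbs μ J χ (fun x => (χ e).s x * A.s x) / gibbs μ J χ A.c) ^ 2 /
      (2 + |gibbs μ J χ (fun x => (χ e).s x * A.s x) / gibbs μ J χ A.c|) * gibbs μ J χ A.c ≤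
      gibbs μ J χ (fun x => (χ e).c x * A.c x) - gibbs μ J χ (χ e).c * gibbs μ J χ A.c := by
  have h7 := H292.r7 μ J χ h2 hJ e A
  have h0 := cov_nonneg μ J χ h2 hJ e A
  have hc : gibbs μ J χ (χ e).c ≤ 1 := by
    have h := gibbs_mono μ J χ (χ e).cont_c continuous_const (g := fun _ => (1 : ℝ))
      (fun x => (le_abs_self _).trans ((χ e).abs_c_le x))
    rwa [gibbs_const] at h
  set g := gibbs μ J χ A.c with hg
  set p := gibbs μ J χ (fun x => (χ e).c x * A.c x) with hp
  set q := gibbs μ J χ (χ e).c with hq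
  set w := gibbs μ J χ (fun x => (χ e).s x * A.s x) with hw
  set s := w / g with hs
  have hws : w = s * g := by rw [hs, div_mul_cancel₀ _ hpos.ne']
  set X := (p - q * g) / g with hX
  have hXg : p - q * g = X * g := by rw [hX, div_mul_cancel₀ _ hpos.ne']
  have hX0 : 0 ≤ X := div_nonneg h0 hpos.le
  have h8 : s ^ 2 ≤ X * (X + 2) := by
    have h9 : w ^ 2 ≤ (X * g) * (X * g + 2 * g) := by
      refine h7.trans ?_
      have e1 : p + q * g = X * g + 2 * (q * g) := by linarith
      rw [hXg, e1]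
      refine mul_le_mul_of_nonneg_left ?_ (by positivity)
      nlinarith
    rw [hws] at h9
    have e2 : (s * g) ^ 2 = s ^ 2 * g ^ 2 := by ring
    have e3 : (X * g) * (X * g + 2 * g) = (X * (X + 2)) * g ^ 2 := by ring
    rw [e2, e3] at h9
    exact le_of_mul_le_mul_right h9 (by positivity)
  rw [hXg]
  refine mul_le_mul_of_nonneg_right ?_ hpos.le
  have ha : 0 ≤ |s| := abs_nonneg s
  have hsq : s ^ 2 = |s| ^ 2 := (sq_abs s).symm
  rw [hsq] at h8 ⊢
  set t := |s| with ht
  rw [div_le_iff₀ (by positivity)]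
  by_contra hneg
  rw [not_le] at hneg
  have h10 : X < t ^ 2 / (2 + t) := by
    rw [lt_div_iff₀ (by positivity)]
    exact hneg
  have h11 : t ^ 2 / (2 + t) ≤ t := by
    rw [div_le_iff₀ (by positivity)]
    nlinarith
  nlinarith

theorem sum_scale (J0 : κ → ℝ) (χ : κ → Chr G) (β : ℝ) (x : G) :
    ∑ e, β * J0 e * (χ e).c x = β * ∑ e, J0 e * (χ e).c x := by
  rw [Finset.mul_sum]
  exact Finset.sum_congr rfl fun e _ => by ring

/-- derivative of an expectation in the inverse temperature -/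
theorem gibbs_deriv (J0 : κ → ℝ) (χ : κ → Chr G) {f : G → ℝ} (hf : Continuous f) (β : ℝ) :
    HasDerivAt (fun s : ℝ => gibbs μ (fun k => s * J0 k) χ f)
      (∑ e, J0 e * (gibbs μ (fun k => β * J0 k) χ (fun x => (χ e).c x * f x) -
        gibbs μ (fun k => β * J0 k) χ (χ e).c * gibbs μ (fun k => β * J0 k) χ f)) β := by
  have hh : Continuous fun x : G => ∑ e, J0 e * (χ e).c x := cont_energy J0 χ
  have h1 := hasDerivAt_int μ hf hh β
  have h2 := hasDerivAt_int μ (f := fun _ : G => (1 : ℝ)) continuous_const hh β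
  simp only [one_mul] at h2
  have hZ : 0 < ∫ x, Real.exp (β * ∑ e, J0 e * (χ e).c x) ∂μ :=
    integral_exp_pos (cint (Real.continuous_exp.comp (continuous_const.mul hh)))
  have h3 := h1.div h2 hZ.ne'
  have e0 : (fun s : ℝ => gibbs μ (fun k => s * J0 k) χ f) = fun s =>
      (∫ x, f x * Real.exp (s * ∑ e, J0 e * (χ e).c x) ∂μ) /
        ∫ x, Real.exp (s * ∑ e, J0 e * (χ e).c x) ∂μ := by
    funext s
    unfold gibbs
    simp_rw [sum_scale J0 χ s]
  rw [e0]
  refine h3.congr_deriv ?_
  set Z := ∫ x, Real.exp (β * ∑ e, J0 e * (χ e).c x) ∂μ with hZdef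
  have e1 : ∀ g : G → ℝ, gibbs μ (fun k => β * J0 k) χ g =
      (∫ x, g x * Real.exp (β * ∑ e, J0 e * (χ e).c x) ∂μ) / Z := by
    intro g
    unfold gibbs
    simp_rw [sum_scale J0 χ β]
    rw [hZdef]
  have hE : Continuous fun x : G => Real.exp (β * ∑ e, J0 e * (χ e).c x) :=
    Real.continuous_exp.comp (continuous_const.mul hh)
  have e2 : ∫ x, f x * ((∑ e, J0 e * (χ e).c x) * Real.exp (β * ∑ e, J0 e * (χ e).c x)) ∂μ =
      ∑ e, J0 e * ∫ x, ((χ e).c x * f x) * Real.exp (β * ∑ e, J0 e * (χ e).c x) ∂μ := by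
    have e3 : ∀ x : G, f x * ((∑ e, J0 e * (χ e).c x) *
        Real.exp (β * ∑ e, J0 e * (χ e).c x)) =
        ∑ e, J0 e * (((χ e).c x * f x) * Real.exp (β * ∑ e, J0 e * (χ e).c x)) := by
      intro x
      rw [Finset.sum_mul, Finset.mul_sum]
      exact Finset.sum_congr rfl fun e _ => by ring
    have hi : ∀ e, Integrable (fun x : G => J0 e * (((χ e).c x * f x) *
        Real.exp (β * ∑ e, J0 e * (χ e).c x))) μ := fun e =>
      cint (continuous_const.mul (((χ e).cont_c.mul hf).mul hE))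
    simp_rw [e3]
    rw [integral_finsetSum _ fun e _ => hi e]
    exact Finset.sum_congr rfl fun e _ => integral_const_mul _ _
  have e4 : ∫ x, (∑ e, J0 e * (χ e).c x) * Real.exp (β * ∑ e, J0 e * (χ e).c x) ∂μ =
      ∑ e, J0 e * ∫ x, (χ e).c x * Real.exp (β * ∑ e, J0 e * (χ e).c x) ∂μ := by
    have e3 : ∀ x : G, (∑ e, J0 e * (χ e).c x) * Real.exp (β * ∑ e, J0 e * (χ e).c x) =
        ∑ e, J0 e * ((χ e).c x * Real.exp (β * ∑ e, J0 e * (χ e).c x)) := by
      intro x
      rw [Finset.sum_mul]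
      exact Finset.sum_congr rfl fun e _ => by ring
    have hi : ∀ e, Integrable (fun x : G => J0 e * ((χ e).c x *
        Real.exp (β * ∑ e, J0 e * (χ e).c x))) μ := fun e =>
      cint (continuous_const.mul ((χ e).cont_c.mul hE))
    simp_rw [e3]
    rw [integral_finsetSum _ fun e _ => hi e]
    exact Finset.sum_congr rfl fun e _ => integral_const_mul _ _
  simp_rw [e1]
  rw [e2, e4]
  rw [div_eq_iff (by positivity)]
  rw [Finset.sum_mul, Finset.mul_sum, Finset.sum_mul, ← Finset.sum_sub_distrib]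
  refine Finset.sum_congr rfl fun e _ => ?_
  have hZ0 : Z ≠ 0 := hZ.ne'
  field_simp

/-- **growth of a correlation with the inverse temperature.** -/
theorem growth (J0 : κ → ℝ) (χ : κ → Chr G) (A : Chr G) (h2 : ∀ g : G, ∃ h : G, h + h = g)
    (hJ : ∀ k, 0 ≤ J0 k) {b b' c : ℝ} (hb : 0 < b) (hbb : b ≤ b')
    (hpos : 0 < gibbs μ (fun k => b * J0 k) χ A.c)
    (hS : ∀ β, b ≤ β → β ≤ b' → c / β ^ 2 ≤ ∑ e, J0 e *
      ((gibbs μ (fun k => β * J0 k) χ (fun x => (χ e).s x * A.s x) /
          gibbs μ (fun k => β * J0 k) χ A.c) ^ 2 /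
        (2 + |gibbs μ (fun k => β * J0 k) χ (fun x => (χ e).s x * A.s x) /
          gibbs μ (fun k => β * J0 k) χ A.c|))) :
    gibbs μ (fun k => b * J0 k) χ A.c * Real.exp (c * (1 / b - 1 / b')) ≤
      gibbs μ (fun k => b' * J0 k) χ A.c := by
  have hd := fun β : ℝ => gibbs_deriv μ J0 χ A.cont_c β
  have hJβ : ∀ β : ℝ, 0 ≤ β → ∀ k, 0 ≤ β * J0 k := fun β hβ k => mul_nonneg hβ (hJ k)
  have hmono : MonotoneOn (fun s : ℝ => gibbs μ (fun k => s * J0 k) χ A.c) (Set.Icc b b') := by
    refine monotoneOn_of_deriv_nonneg (convex_Icc b b')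
      (fun β _ => (hd β).continuousAt.continuousWithinAt)
      (fun β _ => (hd β).differentiableAt.differentiableWithinAt) fun β hβ => ?_
    rw [interior_Icc] at hβ
    rw [(hd β).deriv]
    exact Finset.sum_nonneg fun e _ => mul_nonneg (hJ e)
      (cov_nonneg μ _ χ h2 (hJβ β (hb.le.trans hβ.1.le)) e A)
  have hpos' : ∀ β, b ≤ β → β ≤ b' → 0 < gibbs μ (fun k => β * J0 k) χ A.c := by
    intro β h1 h3
    exact lt_of_lt_of_le hpos (hmono (Set.left_mem_Icc.2 hbb) ⟨h1, h3⟩ h1)
  have hd' : ∀ β : ℝ, 0 < β → HasDerivAt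
      (fun s : ℝ => gibbs μ (fun k => s * J0 k) χ A.c * Real.exp (c / s))
      ((∑ e, J0 e * (gibbs μ (fun k => β * J0 k) χ (fun x => (χ e).c x * A.c x) -
        gibbs μ (fun k => β * J0 k) χ (χ e).c * gibbs μ (fun k => β * J0 k) χ A.c)) *
          Real.exp (c / β) +
        gibbs μ (fun k => β * J0 k) χ A.c * (Real.exp (c / β) * (-(c / β ^ 2)))) β := by
    intro β hβ
    have h4 : HasDerivAt (fun s : ℝ => c / s) (-(c / β ^ 2)) β := by
      have h5 := (hasDerivAt_inv hβ.ne').const_mul c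
      have e1 : (fun s : ℝ => c / s) = fun s => c * s⁻¹ := by
        funext s
        rw [div_eq_mul_inv]
      rw [e1]
      refine h5.congr_deriv ?_
      rw [div_eq_mul_inv]
      ring
    exact (hd β).mul h4.exp
  have hmono2 : MonotoneOn
      (fun s : ℝ => gibbs μ (fun k => s * J0 k) χ A.c * Real.exp (c / s)) (Set.Icc b b') := by
    refine monotoneOn_of_deriv_nonneg (convex_Icc b b')
      (fun β hβ => (hd' β (hb.trans_le hβ.1)).continuousAt.continuousWithinAt)
      (fun β hβ => ?_) fun β hβ => ?_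
    · rw [interior_Icc] at hβ
      exact (hd' β (hb.trans hβ.1)).differentiableAt.differentiableWithinAt
    · rw [interior_Icc] at hβ
      have hβ0 : 0 < β := hb.trans hβ.1
      rw [(hd' β hβ0).deriv]
      have h5 : c / β ^ 2 * gibbs μ (fun k => β * J0 k) χ A.c ≤
          ∑ e, J0 e * (gibbs μ (fun k => β * J0 k) χ (fun x => (χ e).c x * A.c x) -
            gibbs μ (fun k => β * J0 k) χ (χ e).c * gibbs μ (fun k => β * J0 k) χ A.c) := by
        have hp := hpos' β hβ.1.le hβ.2.le
        refine (mul_le_mul_of_nonneg_right (hS β hβ.1.le hβ.2.le) hp.le).trans ?_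
        rw [Finset.sum_mul]
        refine Finset.sum_le_sum fun e _ => ?_
        rw [mul_assoc]
        exact mul_le_mul_of_nonneg_left
          (cov_ge μ _ χ h2 (hJβ β hβ0.le) e A hp) (hJ e)
      have h6 := mul_le_mul_of_nonneg_right h5 (Real.exp_pos (c / β)).le
      linarith
  have h7 := hmono2 (Set.left_mem_Icc.2 hbb) (Set.right_mem_Icc.2 hbb) hbb
  simp only at h7
  have h8 := mul_le_mul_of_nonneg_right h7 (Real.exp_pos (-(c / b'))).le
  rw [mul_assoc, mul_assoc, ← Real.exp_add, ← Real.exp_add] at h8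
  have e1 : c / b + -(c / b') = c * (1 / b - 1 / b') := by ring
  rw [e1, add_neg_cancel, Real.exp_zero, mul_one] at h8
  exact h8

end Growth

end Vale.Agent.P159.H670
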